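import Mathlib.MeasureTheory.Integral.Bochner.Basic
import Mathlib.MeasureTheory.Measure.Lebesgue.Basic
import Mathlib.MeasureTheory.Measure.Prod
import Mathlib.MeasureTheory.Group.Measure

/-! Cutting intervals and cubes into translates of one cell; marginals of product measures. -/

namespace Vale.Agent.P075

open MeasureTheory Measure Finset

variable {α β γ δ' ι κ : Type*} [MeasurableSpace α] [MeasurableSpace β] [MeasurableSpace γ]
  [MeasurableSpace δ']

/-- `ρ` is the sum of the images of `μ` under the maps `f i`, `i ∈ s`. -/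
def Dec (ρ : Measure α) (s : Finset ι) (f : ι → γ → α) (μ : Measure γ) : Prop :=
  (∀ i, Measurable (f i)) ∧ ρ = ∑ i ∈ s, μ.map (f i)

lemma Dec.prod {ρ : Measure α} {s : Finset ι} {f : ι → γ → α} {μ : Measure γ}
    {ρ' : Measure β} {t : Finset κ} {g : κ → δ' → β} {ν : Measure δ'}
    [SFinite ρ'] [SFinite μ] [SFinite ν] (h : Dec ρ s f μ) (h' : Dec ρ' t g ν) :
    Dec (ρ.prod ρ') (s ×ˢ t) (fun p => Prod.map (f p.1) (g p.2)) (μ.prod ν) := by
  refine ⟨fun p => (h.1 p.1).prodMap (h'.1 p.2), ?_⟩
  ext A hA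
  rw [Measure.prod_apply hA, h.2, lintegral_finsetSum_measure, Measure.finsetSum_apply,
    Finset.sum_product]
  refine Finset.sum_congr rfl fun i _ => ?_
  simp only [h'.2, Measure.finsetSum_apply]
  rw [lintegral_finsetSum _ fun j _ => measurable_measure_prodMk_left hA]
  refine Finset.sum_congr rfl fun j _ => ?_
  rw [← map_prod_map _ _ (h.1 i) (h'.1 j), Measure.prod_apply hA]

lemma Dec.integrable {ρ : Measure α} {s : Finset ι} {f : ι → γ → α} {μ : Measure γ}
    (h : Dec ρ s f μ) {H : α → ℝ} (hH : Integrable H ρ) {i : ι} (hi : i ∈ s) :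
    Integrable (fun u => H (f i u)) μ := by
  rw [h.2, integrable_finsetSum_measure] at hH
  exact (integrable_map_measure (hH i hi).aestronglyMeasurable (h.1 i).aemeasurable).mp (hH i hi)

lemma Dec.integral {ρ : Measure α} {s : Finset ι} {f : ι → γ → α} {μ : Measure γ}
    (h : Dec ρ s f μ) {H : α → ℝ} (hH : Integrable H ρ) :
    ∫ x, H x ∂ρ = ∫ u, ∑ i ∈ s, H (f i u) ∂μ := by
  rw [integral_finsetSum _ fun i hi => h.integrable hH hi]
  rw [h.2, integrable_finsetSum_measure] at hH
  rw [h.2, integral_finsetSum_measure hH]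
  exact Finset.sum_congr rfl fun i hi =>
    integral_map (h.1 i).aemeasurable (hH i hi).aestronglyMeasurable

lemma map_cell (c d : ℝ) :
    (volume.restrict (Set.Ico 0 d)).map (fun u => c + u) = volume.restrict (Set.Ico c (c + d)) := by
  conv_rhs => rw [← map_add_left_eq_self volume c]
  rw [Measure.restrict_map (measurable_const_add c) measurableSet_Ico,
    Set.preimage_const_add_Ico]
  simp

lemma dec_Ico {d : ℝ} (hd : 0 ≤ d) (a N : ℕ) :
    Dec (volume.restrict (Set.Ico (d * a) (d * (a + N)))) (range N)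
      (fun x u => d * ((a + x : ℕ) : ℝ) + u) (volume.restrict (Set.Ico 0 d)) := by
  refine ⟨fun x => measurable_const_add _, ?_⟩
  induction N with
  | zero => simp
  | succ N ih =>
    rw [Finset.sum_range_succ, ← ih, map_cell]
    push_cast
    have h1 : d * a ≤ d * (a + N) := by nlinarith [Nat.cast_nonneg (α := ℝ) N]
    have h2 : d * (a + N) ≤ d * (a + N) + d := by linarith
    rw [← restrict_union (Set.Ico_disjoint_Ico_same) measurableSet_Ico,
      Set.Ico_union_Ico_eq_Ico h1 h2]
    congr 2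
    ring

lemma marg01 (ρ0 : Measure α) (ρ1 : Measure β) (ρ2 : Measure γ) [SFinite ρ0] [SFinite ρ1]
    [SFinite ρ2] : (ρ0.prod (ρ1.prod ρ2)).map (fun u => (u.1, u.2.1)) =
      ρ2 Set.univ • ρ0.prod ρ1 := by
  have := map_prod_map ρ0 (ρ1.prod ρ2) measurable_id measurable_fst
  rw [Measure.map_id, map_fst_prod, prod_smul_right] at this
  exact this.symm

lemma marg12 (ρ0 : Measure α) (ρ1 : Measure β) (ρ2 : Measure γ) [SFinite ρ0] [SFinite ρ1]
    [SFinite ρ2] : (ρ0.prod (ρ1.prod ρ2)).map (fun u => (u.2.1, u.2.2)) =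
      ρ0 Set.univ • ρ1.prod ρ2 :=
  map_snd_prod

lemma marg20 (ρ0 : Measure α) (ρ1 : Measure β) (ρ2 : Measure γ) [SFinite ρ0] [SFinite ρ1]
    [SFinite ρ2] : (ρ0.prod (ρ1.prod ρ2)).map (fun u => (u.2.2, u.1)) =
      ρ1 Set.univ • ρ2.prod ρ0 := by
  have := map_prod_map ρ0 (ρ1.prod ρ2) measurable_id measurable_snd
  rw [Measure.map_id, map_snd_prod, prod_smul_right] at this
  rw [← prod_swap (μ := ρ0) (ν := ρ2), ← Measure.map_smul, this,
    Measure.map_map measurable_swap (measurable_id.prodMap measurable_snd)]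
  rfl

lemma marg_aesm {P : Measure α} {Q : Measure β} {π : α → β} (hπ : Measurable π) {c : ENNReal}
    (h : P.map π = c • Q) {H : β → ℝ} (hH : AEStronglyMeasurable H Q) :
    AEStronglyMeasurable (fun u => H (π u)) P :=
  AEStronglyMeasurable.comp_aemeasurable (by rw [h]; exact hH.smul_measure c) hπ.aemeasurable

lemma marg_integrable {P : Measure α} {Q : Measure β} {π : α → β} (hπ : Measurable π)
    {c : ENNReal} (hc : c ≠ ⊤) (h : P.map π = c • Q) {H : β → ℝ} (hH : Integrable H Q) :
    Integrable (fun u => H (π u)) P := by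
  have h1 : Integrable H (P.map π) := by rw [h]; exact hH.smul_measure hc
  exact (integrable_map_measure h1.aestronglyMeasurable hπ.aemeasurable).mp h1

lemma marg_integral {P : Measure α} {Q : Measure β} {π : α → β} (hπ : Measurable π)
    {c : ENNReal} (h : P.map π = c • Q) {H : β → ℝ} (hH : Integrable H Q) :
    ∫ u, H (π u) ∂P = c.toReal * ∫ x, H x ∂Q := by
  rw [← integral_map hπ.aemeasurable (by rw [h]; exact hH.aestronglyMeasurable.smul_measure c), h,
    integral_smul_measure, smul_eq_mul]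

end Vale.Agent.P075
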