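import Vale.Agent.P075.Node
import Mathlib.Data.Nat.Bitwise

/-! Telescoping the Bellman inequality along the dyadic tree: the discrete estimate. -/

namespace Vale.Agent.P075

open Matrix Finset

/-- Coordinate embedding of one half. -/
def emb (κ : Type*) [DecidableEq κ] (b : Bool) : Matrix κ (Bool × κ) ℝ :=
  Matrix.of fun x p => if p = (b, x) then 1 else 0

section

variable {κ κ' : Type*} [Fintype κ] [DecidableEq κ] [Fintype κ'] [DecidableEq κ']

lemma emb_gram (b : Bool) :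
    (emb κ b)ᵀ * emb κ b = diagonal fun p : Bool × κ => if p.1 = b then (1 : ℝ) else 0 := by
  ext ⟨c, x⟩ ⟨d, y⟩
  simp only [mul_apply, transpose_apply, emb, of_apply, diagonal_apply, Prod.mk.injEq]
  by_cases h1 : c = b
  · by_cases h2 : d = b
    · subst h1; subst h2
      simp
    · have : c ≠ d := fun h => h2 (h ▸ h1)
      simp [h2, this]
  · simp [h1]

lemma emb_split : Split (emb κ) where
  sum := by
    rw [emb_gram, emb_gram, diagonal_add, ← diagonal_one]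
    congr 1
    funext ⟨c, x⟩
    cases c <;> simp
  iso b := by
    ext x y
    simp only [mul_apply, transpose_apply, emb, of_apply, one_apply]
    simp [eq_comm]

lemma emb_sgn : sgn (emb κ) = diagonal fun p : Bool × κ => if p.1 then (-1 : ℝ) else 1 := by
  rw [sgn, emb_gram, emb_gram, diagonal_sub]
  congr 1
  funext ⟨c, x⟩
  cases c <;> simp

lemma emb_block (X : Matrix (Bool × κ) (Bool × κ') ℝ) (b e : Bool) :
    emb κ b * X * (emb κ' e)ᵀ = Matrix.of fun x y => X (b, x) (e, y) := by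
  ext x y
  simp [mul_apply, emb]

end

/-- Binary strings of length `j`. -/
def Str : ℕ → Type
  | 0 => Unit
  | j + 1 => Bool × Str j

instance instFintypeStr : (j : ℕ) → Fintype (Str j)
  | 0 => inferInstanceAs (Fintype Unit)
  | j + 1 => @instFintypeProd Bool (Str j) _ (instFintypeStr j)

instance instDecEqStr : (j : ℕ) → DecidableEq (Str j)
  | 0 => inferInstanceAs (DecidableEq Unit)
  | j + 1 => @instDecidableEqProd Bool (Str j) _ (instDecEqStr j)

/-- The number with the given binary string. -/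
def val : (j : ℕ) → Str j → ℕ
  | 0, _ => 0
  | j + 1, p => 2 ^ j * p.1.toNat + val j p.2

lemma sum_succ (j : ℕ) (f : Str (j + 1) → ℝ) :
    ∑ p, f p = ∑ x : Str j, f (false, x) + ∑ x : Str j, f (true, x) := by
  have h := Fintype.sum_prod_type (fun p : Bool × Str j => f p)
  rw [Fintype.sum_bool, add_comm] at h
  exact h

lemma sum_val : ∀ (j : ℕ) (f : ℕ → ℝ), ∑ x : Str j, f (val j x) = ∑ x ∈ range (2 ^ j), f x
  | 0, f => by
    have : ∑ x : Str 0, f (val 0 x) = ∑ _x : Unit, f 0 := rfl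
    rw [this]; simp
  | j + 1, f => by
    rw [sum_succ, pow_succ, mul_two, Finset.sum_range_add, ← sum_val j, ← sum_val j]
    simp [val]

lemma val_lt : ∀ (j : ℕ) (x : Str j), val j x < 2 ^ j
  | 0, _ => by simp [val]
  | j + 1, (b, x) => by
    have := val_lt j x
    cases b <;> simp [val, pow_succ] <;> omega

/-- The block of an infinite array over a dyadic square. -/
def mat (j n m : ℕ) (a : ℕ → ℕ → ℝ) : Matrix (Str j) (Str j) ℝ :=
  Matrix.of fun x y => a (2 ^ j * n + val j x) (2 ^ j * m + val j y)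

lemma mat_block (j n m : ℕ) (a : ℕ → ℕ → ℝ) (b e : Bool) :
    emb (Str j) b * (show Matrix (Bool × Str j) (Bool × Str j) ℝ from mat (j + 1) n m a) *
      (emb (Str j) e)ᵀ = mat j (Nat.bit b n) (Nat.bit e m) a := by
  rw [emb_block]
  ext x y
  change a (2 ^ (j + 1) * n + (2 ^ j * b.toNat + val j x))
    (2 ^ (j + 1) * m + (2 ^ j * e.toNat + val j y)) =
    a (2 ^ j * Nat.bit b n + val j x) (2 ^ j * Nat.bit e m + val j y)
  simp only [Nat.bit_val]
  congr 1 <;> ring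

/-- Haar sign on an interval of length `2^(i+1)`. -/
def sg (i x : ℕ) : ℝ := if x < 2 ^ i then 1 else -1

/-- The discrete trilinear form over a triple of dyadic intervals of length `2^(i+1)`. -/
def tr3 (a b c : ℕ → ℕ → ℝ) (i n0 n1 n2 : ℕ) : ℝ :=
  ∑ x0 ∈ range (2 ^ (i + 1)), ∑ x1 ∈ range (2 ^ (i + 1)), ∑ x2 ∈ range (2 ^ (i + 1)),
    a (2 ^ (i + 1) * n0 + x0) (2 ^ (i + 1) * n1 + x1) *
      b (2 ^ (i + 1) * n1 + x1) (2 ^ (i + 1) * n2 + x2) *
      c (2 ^ (i + 1) * n2 + x2) (2 ^ (i + 1) * n0 + x0) * (sg i x0 * sg i x1 * sg i x2)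

lemma sg_val (i : ℕ) (p : Bool × Str i) :
    (if p.1 then (-1 : ℝ) else 1) = sg i (val (i + 1) p) := by
  obtain ⟨b, x⟩ := p
  have := val_lt i x
  cases b <;> simp [sg, val, this]

lemma trace_three {ι : Type*} [Fintype ι] [DecidableEq ι] (A B C : Matrix ι ι ℝ) (s : ι → ℝ) :
    trace (A * diagonal s * B * diagonal s * C * diagonal s) =
      ∑ x0, ∑ x1, ∑ x2, A x0 x1 * B x1 x2 * C x2 x0 * (s x0 * s x1 * s x2) := by
  simp only [trace, diag_apply, mul_diagonal]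
  refine Finset.sum_congr rfl fun x0 _ => ?_
  rw [mul_apply, Finset.sum_comm, Finset.sum_mul]
  refine Finset.sum_congr rfl fun x2 _ => ?_
  rw [mul_diagonal, mul_apply, Finset.sum_mul, Finset.sum_mul, Finset.sum_mul]
  refine Finset.sum_congr rfl fun x1 _ => ?_
  rw [mul_diagonal]; ring

lemma trace_mat (a b c : ℕ → ℕ → ℝ) (i n0 n1 n2 : ℕ) :
    trace ((show Matrix (Bool × Str i) (Bool × Str i) ℝ from mat (i + 1) n0 n1 a) *
      sgn (emb (Str i)) *
      (show Matrix (Bool × Str i) (Bool × Str i) ℝ from mat (i + 1) n1 n2 b) *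
      sgn (emb (Str i)) *
      (show Matrix (Bool × Str i) (Bool × Str i) ℝ from mat (i + 1) n2 n0 c) *
      sgn (emb (Str i))) = tr3 a b c i n0 n1 n2 := by
  rw [emb_sgn, trace_three, tr3, ← sum_val]
  refine Finset.sum_congr rfl fun x0 _ => ?_
  rw [← sum_val]
  refine Finset.sum_congr rfl fun x1 _ => ?_
  rw [← sum_val]
  refine Finset.sum_congr rfl fun x2 _ => ?_
  rw [sg_val, sg_val, sg_val]
  rfl

/-- Normalised Bellman function at a node of the tree. -/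
noncomputable def bel (a b c : ℕ → ℕ → ℝ) (η : ℝ) (j n0 n1 : ℕ) : ℝ :=
  (2 ^ j)⁻¹ * Bel (mat j n0 n1 a) (mat j n1 (n0 ^^^ n1) b) (mat j (n0 ^^^ n1) n0 c) (2 ^ j * η)

/-- Normalised size of the form at a node of the tree. -/
noncomputable def ell (a b c : ℕ → ℕ → ℝ) (i n0 n1 : ℕ) : ℝ :=
  (2 ^ (i + 1))⁻¹ * |tr3 a b c i n0 n1 (n0 ^^^ n1)|

lemma ell_nonneg (a b c : ℕ → ℕ → ℝ) (i n0 n1 : ℕ) : 0 ≤ ell a b c i n0 n1 := by
  unfold ell; positivity

lemma bel_nonneg (a b c : ℕ → ℕ → ℝ) (η : ℝ) (j n0 n1 : ℕ) : 0 ≤ bel a b c η j n0 n1 :=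
  mul_nonneg (by positivity) (Bel_nonneg _ _ _ _)

lemma bel_step (a b c : ℕ → ℕ → ℝ) {η : ℝ} (hη : 0 < η) (i n0 n1 : ℕ) :
    bel a b c η (i + 1) n0 n1 + ell a b c i n0 n1 ≤
      ∑ d, ∑ e, bel a b c η i (Nat.bit d n0) (Nat.bit e n1) := by
  have h := node (emb_split (κ := Str i)) (emb_split (κ := Str i)) (emb_split (κ := Str i))
    (show Matrix (Bool × Str i) (Bool × Str i) ℝ from mat (i + 1) n0 n1 a)
    (show Matrix (Bool × Str i) (Bool × Str i) ℝ from mat (i + 1) n1 (n0 ^^^ n1) b)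
    (show Matrix (Bool × Str i) (Bool × Str i) ℝ from mat (i + 1) (n0 ^^^ n1) n0 c)
    (η := 2 ^ i * η) (by positivity)
  rw [trace_mat] at h
  simp only [mat_block] at h
  have e1 : bel a b c η (i + 1) n0 n1 = (2 ^ (i + 1))⁻¹ * Bel
      (show Matrix (Bool × Str i) (Bool × Str i) ℝ from mat (i + 1) n0 n1 a)
      (show Matrix (Bool × Str i) (Bool × Str i) ℝ from mat (i + 1) n1 (n0 ^^^ n1) b)
      (show Matrix (Bool × Str i) (Bool × Str i) ℝ from mat (i + 1) (n0 ^^^ n1) n0 c)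
      (2 * (2 ^ i * η)) := by
    rw [show 2 * (2 ^ i * η) = 2 ^ (i + 1) * η by ring]
    rfl
  have e2 : ∑ d, ∑ e, bel a b c η i (Nat.bit d n0) (Nat.bit e n1) =
      (2 ^ (i + 1))⁻¹ * (2 * ∑ d, ∑ e, Bel (mat i (Nat.bit d n0) (Nat.bit e n1) a)
        (mat i (Nat.bit e n1) (Nat.bit (d ^^ e) (n0 ^^^ n1)) b)
        (mat i (Nat.bit (d ^^ e) (n0 ^^^ n1)) (Nat.bit d n0) c) (2 ^ i * η)) := by
    rw [← mul_assoc, show ((2 : ℝ) ^ (i + 1))⁻¹ * 2 = (2 ^ i)⁻¹ by rw [pow_succ]; field_simp]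
    simp only [Finset.mul_sum, bel, Nat.xor_bit]
  rw [e1, e2, ell, ← mul_add]
  exact mul_le_mul_of_nonneg_left h (by positivity)

lemma sum_range_bit (K : ℕ) (f : ℕ → ℝ) :
    ∑ n ∈ range (2 * K), f n = ∑ n ∈ range K, ∑ d, f (Nat.bit d n) := by
  induction K with
  | zero => simp
  | succ K ih =>
    rw [Nat.mul_succ, Finset.sum_range_succ, Finset.sum_range_succ, Finset.sum_range_succ, ih,
      Fintype.sum_bool]
    simp only [Nat.bit_val, Bool.toNat_true, Bool.toNat_false, add_zero]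
    ring

lemma telescope (a b c : ℕ → ℕ → ℝ) {η : ℝ} (hη : 0 < η) (M : ℕ) : ∀ K : ℕ,
    ∑ n0 ∈ range K, ∑ n1 ∈ range K, bel a b c η M n0 n1 +
      ∑ i ∈ range M, ∑ n0 ∈ range K, ∑ n1 ∈ range K, ell a b c i n0 n1 ≤
      ∑ n0 ∈ range (2 ^ M * K), ∑ n1 ∈ range (2 ^ M * K), bel a b c η 0 n0 n1 := by
  induction M with
  | zero => intro K; simp
  | succ M ih =>
    intro K
    have h1 := ih (2 * K)
    rw [show 2 ^ M * (2 * K) = 2 ^ (M + 1) * K by ring] at h1
    have h2 : ∑ n0 ∈ range K, ∑ n1 ∈ range K, bel a b c η (M + 1) n0 n1 +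
        ∑ n0 ∈ range K, ∑ n1 ∈ range K, ell a b c M n0 n1 ≤
        ∑ n0 ∈ range (2 * K), ∑ n1 ∈ range (2 * K), bel a b c η M n0 n1 := by
      rw [sum_range_bit, ← Finset.sum_add_distrib]
      refine Finset.sum_le_sum fun n0 _ => ?_
      simp only [sum_range_bit]
      rw [Finset.sum_comm, ← Finset.sum_add_distrib]
      exact Finset.sum_le_sum fun n1 _ => bel_step a b c hη M n0 n1
    have h3 : ∑ i ∈ range M, ∑ n0 ∈ range K, ∑ n1 ∈ range K, ell a b c i n0 n1 ≤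
        ∑ i ∈ range M, ∑ n0 ∈ range (2 * K), ∑ n1 ∈ range (2 * K), ell a b c i n0 n1 := by
      have hs : range K ⊆ range (2 * K) := Finset.range_subset_range.mpr (by omega)
      refine Finset.sum_le_sum fun i _ => ?_
      refine le_trans (Finset.sum_le_sum fun n0 _ => ?_)
        (Finset.sum_le_sum_of_subset_of_nonneg hs fun n0 _ _ =>
          Finset.sum_nonneg fun n1 _ => ell_nonneg a b c i n0 n1)
      exact Finset.sum_le_sum_of_subset_of_nonneg hs fun n1 _ _ => ell_nonneg a b c i n0 n1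
    rw [Finset.sum_range_succ]
    linarith

lemma Phi_leaf (X Y : Matrix Unit Unit ℝ) {t : ℝ} (ht : 0 < t) :
    Phi (Vf X Y (t ^ 2)) ≤ 9 * (|X () ()| ^ 3 + |Y () ()| ^ 3 + t ^ 3) := by
  obtain ⟨σ, O, N, Ni, h1, -, hσ, hN, hsq, -, -, -, hΦ⟩ :=
    exists_root (Vf_symm X Y) (Vf_pd X Y (by positivity : 0 < t ^ 2))
  rw [hΦ]
  have e1 : O () () * O () () = 1 := by
    have := congrFun (congrFun h1 ()) ()
    simpa [mul_apply] using this
  have e2 : N () () = σ () := by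
    rw [hN]
    simp only [mul_apply, Finset.univ_unique, Finset.sum_singleton, transpose_apply,
      PUnit.default_eq_unit, diagonal_apply_eq]
    linear_combination σ () * e1
  have e3 : σ () * σ () = X () () * X () () + Y () () * Y () () + t ^ 2 := by
    have := congrFun (congrFun hsq ()) ()
    simpa [mul_apply, Vf, e2] using this
  simp only [Finset.univ_unique, Finset.sum_singleton, PUnit.default_eq_unit]
  have hs := hσ ()
  rw [← abs_mul_abs_self (X () ()), ← abs_mul_abs_self (Y () ())] at e3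
  have hx := abs_nonneg (X () ())
  have hy := abs_nonneg (Y () ())
  generalize |X () ()| = x at *
  generalize |Y () ()| = y at *
  generalize σ () = s at *
  have h4 : s ≤ x + y + t := by
    by_contra h
    push Not at h
    nlinarith [mul_nonneg hx hy, mul_nonneg hx ht.le, mul_nonneg hy ht.le]
  have h5 : s ^ 3 ≤ (x + y + t) ^ 3 := pow_le_pow_left₀ hs.le h4 3
  nlinarith [mul_nonneg (add_nonneg hx hy) (sq_nonneg (x - y)),
    mul_nonneg (add_nonneg hx ht.le) (sq_nonneg (x - t)),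
    mul_nonneg (add_nonneg hy ht.le) (sq_nonneg (y - t)),
    mul_nonneg (add_nonneg (add_nonneg hx hy) ht.le)
      (add_nonneg (add_nonneg (sq_nonneg (x - y)) (sq_nonneg (x - t))) (sq_nonneg (y - t)))]

lemma bel_leaf (a b c : ℕ → ℕ → ℝ) {t : ℝ} (ht : 0 < t) (n0 n1 : ℕ) :
    bel a b c (t ^ 2) 0 n0 n1 ≤
      18 * (|a n0 n1| ^ 3 + |b n1 (n0 ^^^ n1)| ^ 3 + |c (n0 ^^^ n1) n0| ^ 3) + 27 * t ^ 3 := by
  have h0 := Phi_leaf (mat 0 n0 n1 a) (mat 0 (n0 ^^^ n1) n0 c) ht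
  have h1 := Phi_leaf (mat 0 n1 (n0 ^^^ n1) b) (mat 0 n0 n1 a) ht
  have h2 := Phi_leaf (mat 0 (n0 ^^^ n1) n0 c) (mat 0 n1 (n0 ^^^ n1) b) ht
  have e : ∀ (n m : ℕ) (f : ℕ → ℕ → ℝ), mat 0 n m f () () = f n m := fun n m f => by
    change f (2 ^ 0 * n + 0) (2 ^ 0 * m + 0) = f n m
    simp
  simp only [e] at h0 h1 h2
  have : bel a b c (t ^ 2) 0 n0 n1 =
      Phi (Vf (l := Unit) (m := Unit) (n := Unit) (mat 0 n0 n1 a) (mat 0 (n0 ^^^ n1) n0 c) (t ^ 2)) +
      Phi (Vf (l := Unit) (m := Unit) (n := Unit) (mat 0 n1 (n0 ^^^ n1) b) (mat 0 n0 n1 a) (t ^ 2)) +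
      Phi (Vf (l := Unit) (m := Unit) (n := Unit) (mat 0 (n0 ^^^ n1) n0 c)
        (mat 0 n1 (n0 ^^^ n1) b) (t ^ 2)) := by
    simp only [bel, pow_zero, inv_one, one_mul]
    rfl
  rw [this]
  linarith

/-- Sum of cubes over a square. -/
def cub (a : ℕ → ℕ → ℝ) (K : ℕ) : ℝ := ∑ n ∈ range K, ∑ m ∈ range K, |a n m| ^ 3

lemma sum_xor (q n : ℕ) (hn : n < 2 ^ q) (f : ℕ → ℝ) :
    ∑ m ∈ range (2 ^ q), f (m ^^^ n) = ∑ m ∈ range (2 ^ q), f m := by
  refine Finset.sum_nbij' (fun m => m ^^^ n) (fun m => m ^^^ n) ?_ ?_ ?_ ?_ ?_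
  · intro m hm
    exact Finset.mem_range.mpr (Nat.xor_lt_two_pow (Finset.mem_range.mp hm) hn)
  · intro m hm
    exact Finset.mem_range.mpr (Nat.xor_lt_two_pow (Finset.mem_range.mp hm) hn)
  · intro m _; simp
  · intro m _; simp
  · intro m _; rfl

/-- The discrete estimate. -/
theorem discrete (a b c : ℕ → ℕ → ℝ) (M p : ℕ) :
    ∑ i ∈ range M, ∑ n0 ∈ range (2 ^ p), ∑ n1 ∈ range (2 ^ p), ell a b c i n0 n1 ≤
      18 * (cub a (2 ^ (M + p)) + cub b (2 ^ (M + p)) + cub c (2 ^ (M + p))) := by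
  have key : ∀ t : ℝ, 0 < t →
      ∑ i ∈ range M, ∑ n0 ∈ range (2 ^ p), ∑ n1 ∈ range (2 ^ p), ell a b c i n0 n1 ≤
      18 * (cub a (2 ^ (M + p)) + cub b (2 ^ (M + p)) + cub c (2 ^ (M + p))) +
        27 * (2 ^ (M + p) * 2 ^ (M + p)) * t ^ 3 := by
    intro t ht
    have h1 := telescope a b c (η := t ^ 2) (by positivity) M (2 ^ p)
    rw [← pow_add] at h1
    have h2 : 0 ≤ ∑ n0 ∈ range (2 ^ p), ∑ n1 ∈ range (2 ^ p), bel a b c (t ^ 2) M n0 n1 :=
      Finset.sum_nonneg fun _ _ => Finset.sum_nonneg fun _ _ => bel_nonneg _ _ _ _ _ _ _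
    have h3 : ∑ n0 ∈ range (2 ^ (M + p)), ∑ n1 ∈ range (2 ^ (M + p)), bel a b c (t ^ 2) 0 n0 n1 ≤
        ∑ n0 ∈ range (2 ^ (M + p)), ∑ n1 ∈ range (2 ^ (M + p)),
          (18 * (|a n0 n1| ^ 3 + |b n1 (n0 ^^^ n1)| ^ 3 + |c (n0 ^^^ n1) n0| ^ 3) + 27 * t ^ 3) :=
      Finset.sum_le_sum fun n0 _ => Finset.sum_le_sum fun n1 _ => bel_leaf a b c ht n0 n1
    have hb : ∑ n0 ∈ range (2 ^ (M + p)), ∑ n1 ∈ range (2 ^ (M + p)), |b n1 (n0 ^^^ n1)| ^ 3 =
        cub b (2 ^ (M + p)) := by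
      rw [Finset.sum_comm]
      exact Finset.sum_congr rfl fun n1 hn =>
        sum_xor _ n1 (Finset.mem_range.mp hn) fun m => |b n1 m| ^ 3
    have hc : ∑ n0 ∈ range (2 ^ (M + p)), ∑ n1 ∈ range (2 ^ (M + p)), |c (n0 ^^^ n1) n0| ^ 3 =
        cub c (2 ^ (M + p)) := by
      rw [cub, Finset.sum_comm (f := fun n m => |c n m| ^ 3)]
      refine Finset.sum_congr rfl fun n0 hn => ?_
      simp only [Nat.xor_comm n0]
      exact sum_xor _ n0 (Finset.mem_range.mp hn) fun m => |c m n0| ^ 3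
    simp only [Finset.sum_add_distrib, ← Finset.mul_sum, Finset.sum_const, Finset.card_range,
      nsmul_eq_mul] at h3
    rw [hb, hc] at h3
    push_cast at h3
    unfold cub at *
    linarith
  refine le_of_forall_pos_le_add fun ε hε => ?_
  set D : ℝ := 27 * (2 ^ (M + p) * 2 ^ (M + p)) with hD
  have hD1 : 1 ≤ D := by
    have : (1 : ℝ) ≤ 2 ^ (M + p) := one_le_pow₀ (by norm_num)
    nlinarith
  have ht : 0 < min 1 (ε / D) := lt_min one_pos (by positivity)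
  refine (key _ ht).trans ?_
  have h1 : min 1 (ε / D) ≤ 1 := min_le_left _ _
  have h2 : min 1 (ε / D) ≤ ε / D := min_le_right _ _
  generalize min 1 (ε / D) = t at *
  have h3 : t ^ 3 ≤ t := by nlinarith [mul_pos ht ht]
  have h4 : D * t ≤ ε := by rwa [le_div_iff₀ (by positivity), mul_comm] at h2
  nlinarith

end Vale.Agent.P075
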