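import Vale.Agent.P075.Defs
import Vale.Agent.P075.Meas
import Vale.Agent.P075.Tree
import Mathlib.MeasureTheory.Function.L1Space.Integrable

/-! From the discrete estimate to the dyadic triangular form on functions. -/

namespace Vale.Agent.P075

open MeasureTheory Measure Finset

lemma measurable_haar (k : ℤ) (n : ℕ) : Measurable (haar k n) :=
  (measurable_const.indicator measurableSet_Ico).sub (measurable_const.indicator measurableSet_Ico)

lemma abs_haar_le (k : ℤ) (n : ℕ) (x : ℝ) : |haar k n x| ≤ 1 := by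
  unfold haar
  simp only [Set.indicator]
  split_ifs <;> norm_num

lemma two_zpow (k0 : ℤ) (i : ℕ) :
    (2 : ℝ) ^ (k0 + 1 + i) = 2 ^ k0 * 2 ^ (i + 1) := by
  rw [add_assoc, zpow_add₀ (by norm_num), ← zpow_natCast]
  congr 2
  push_cast; ring

lemma haar_cell (k0 : ℤ) (i n x : ℕ) (hx : x < 2 ^ (i + 1)) {u : ℝ}
    (hu : u ∈ Set.Ico 0 ((2 : ℝ) ^ k0)) :
    haar (k0 + 1 + i) n (2 ^ k0 * ((2 ^ (i + 1) * n + x : ℕ) : ℝ) + u) = sg i x := by
  have hd : (0 : ℝ) < 2 ^ k0 := by positivity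
  obtain ⟨h0, h1⟩ := hu
  unfold haar sg
  rw [two_zpow]
  push_cast
  generalize (2 : ℝ) ^ k0 = d at *
  have hx' : (x : ℝ) + 1 ≤ 2 ^ (i + 1) := by exact_mod_cast hx
  have hx0 : (0 : ℝ) ≤ x := Nat.cast_nonneg x
  have e : (2 : ℝ) ^ (i + 1) = 2 * 2 ^ i := by ring
  by_cases h : x < 2 ^ i
  · have h' : (x : ℝ) + 1 ≤ 2 ^ i := by exact_mod_cast h
    rw [e] at hx' ⊢
    generalize (2 : ℝ) ^ i = w at *
    rw [Set.indicator_of_mem, Set.indicator_of_notMem, if_pos h]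
    · simp
    · rintro ⟨a, -⟩
      nlinarith
    · constructor <;> nlinarith
  · have h' : (2 : ℝ) ^ i ≤ x := by exact_mod_cast not_lt.mp h
    rw [e] at hx' ⊢
    generalize (2 : ℝ) ^ i = w at *
    rw [Set.indicator_of_notMem, Set.indicator_of_mem, if_neg h]
    · simp
    · constructor <;> nlinarith
    · rintro ⟨-, a⟩
      nlinarith

lemma dyad_eq (k0 : ℤ) (i n : ℕ) : dyad (k0 + 1 + i) n =
    Set.Ico ((2 : ℝ) ^ k0 * ((2 ^ (i + 1) * n : ℕ) : ℝ))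
      (2 ^ k0 * (((2 ^ (i + 1) * n : ℕ) : ℝ) + ((2 ^ (i + 1) : ℕ) : ℝ))) := by
  unfold dyad
  rw [two_zpow]
  push_cast
  congr 1 <;> ring

lemma prod_le_quad {s t : Set ℝ} (hs : s ⊆ Set.Ici 0) (ht : t ⊆ Set.Ici 0) :
    (volume.restrict s).prod (volume.restrict t) ≤ quad2 := by
  rw [prod_restrict, quad2]
  exact restrict_mono (Set.prod_mono hs ht) le_rfl

lemma dyad_subset (k : ℤ) (n : ℕ) : dyad k n ⊆ Set.Ici 0 := fun _ hx =>
  le_trans (by positivity) hx.1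

lemma integrable_cube {F : ℝ × ℝ → ℝ} (hF : MemLp F 3 quad2) :
    Integrable (fun x => |F x| ^ 3) quad2 := by
  have := hF.integrable_norm_rpow (by norm_num) (by norm_num)
  simpa using this

lemma amgm3 (x y z : ℝ) : |x * y * z| ≤ |x| ^ 3 + |y| ^ 3 + |z| ^ 3 := by
  rw [abs_mul, abs_mul]
  have hx := abs_nonneg x
  have hy := abs_nonneg y
  have hz := abs_nonneg z
  generalize |x| = a at *
  generalize |y| = b at *
  generalize |z| = c at *
  nlinarith [mul_nonneg (add_nonneg (add_nonneg hx hy) hz)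
      (add_nonneg (add_nonneg (sq_nonneg (a - b)) (sq_nonneg (a - c))) (sq_nonneg (b - c))),
    mul_nonneg (mul_nonneg hx hy) hz]

lemma integrable_loc {F₀ F₁ F₂ : ℝ × ℝ → ℝ} (h0 : MemLp F₀ 3 quad2) (h1 : MemLp F₁ 3 quad2)
    (h2 : MemLp F₂ 3 quad2) (k : ℤ) (n0 n1 n2 : ℕ) :
    Integrable (fun x : ℝ × ℝ × ℝ => F₀ (x.1, x.2.1) * F₁ (x.2.1, x.2.2) * F₂ (x.2.2, x.1) *
      (haar k n0 x.1 * haar k n1 x.2.1 * haar k n2 x.2.2))
      ((volume.restrict (dyad k n0)).prod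
        ((volume.restrict (dyad k n1)).prod (volume.restrict (dyad k n2)))) := by
  have fin : ∀ n, (volume.restrict (dyad k n)) Set.univ ≠ ⊤ := fun n => by simp [dyad]
  have l01 := prod_le_quad (dyad_subset k n0) (dyad_subset k n1)
  have l12 := prod_le_quad (dyad_subset k n1) (dyad_subset k n2)
  have l20 := prod_le_quad (dyad_subset k n2) (dyad_subset k n0)
  have m01 : Measurable fun u : ℝ × ℝ × ℝ => (u.1, u.2.1) := by fun_prop
  have m12 : Measurable fun u : ℝ × ℝ × ℝ => (u.2.1, u.2.2) := by fun_prop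
  have m20 : Measurable fun u : ℝ × ℝ × ℝ => (u.2.2, u.1) := by fun_prop
  have i0 := marg_integrable m01 (fin n2) (marg01 _ _ _) ((integrable_cube h0).mono_measure l01)
  have i1 := marg_integrable m12 (fin n0) (marg12 _ _ _) ((integrable_cube h1).mono_measure l12)
  have i2 := marg_integrable m20 (fin n1) (marg20 _ _ _) ((integrable_cube h2).mono_measure l20)
  have a0 := marg_aesm m01 (marg01 _ _ (volume.restrict (dyad k n2))) (h0.1.mono_measure l01)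
  have a1 := marg_aesm m12 (marg12 (volume.restrict (dyad k n0)) _ _) (h1.1.mono_measure l12)
  have a2 := marg_aesm m20 (marg20 _ (volume.restrict (dyad k n1)) _) (h2.1.mono_measure l20)
  have mh : Measurable fun x : ℝ × ℝ × ℝ =>
      haar k n0 x.1 * haar k n1 x.2.1 * haar k n2 x.2.2 :=
    (((measurable_haar k n0).comp measurable_fst).mul
      ((measurable_haar k n1).comp (measurable_fst.comp measurable_snd))).mul
      ((measurable_haar k n2).comp (measurable_snd.comp measurable_snd))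
  refine ((i0.add i1).add i2).mono' (((a0.mul a1).mul a2).mul mh.aestronglyMeasurable)
    (Filter.Eventually.of_forall fun x => ?_)
  rw [Real.norm_eq_abs, abs_mul]
  have b1 : |haar k n0 x.1 * haar k n1 x.2.1 * haar k n2 x.2.2| ≤ 1 := by
    rw [abs_mul, abs_mul]
    exact mul_le_one₀ (mul_le_one₀ (abs_haar_le _ _ _) (abs_nonneg _) (abs_haar_le _ _ _))
      (abs_nonneg _) (abs_haar_le _ _ _)
  exact (mul_le_of_le_one_right (abs_nonneg _) b1).trans (amgm3 _ _ _)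

/-- Sampling a function on the grid of mesh `d` shifted by `(s, t)`. -/
def smp (F : ℝ × ℝ → ℝ) (d s t : ℝ) : ℕ → ℕ → ℝ := fun n m => F (d * n + s, d * m + t)

/-- Lebesgue measure on the basic cell. -/
noncomputable abbrev cell (d : ℝ) : Measure ℝ := volume.restrict (Set.Ico 0 d)

lemma loc_eq {F₀ F₁ F₂ : ℝ × ℝ → ℝ} (h0 : MemLp F₀ 3 quad2) (h1 : MemLp F₁ 3 quad2)
    (h2 : MemLp F₂ 3 quad2) (k0 : ℤ) (i n0 n1 n2 : ℕ) :
    Integrable (fun u : ℝ × ℝ × ℝ => tr3 (smp F₀ (2 ^ k0) u.1 u.2.1) (smp F₁ (2 ^ k0) u.2.1 u.2.2)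
        (smp F₂ (2 ^ k0) u.2.2 u.1) i n0 n1 n2)
      ((cell (2 ^ k0)).prod ((cell (2 ^ k0)).prod (cell (2 ^ k0)))) ∧
    locForm F₀ F₁ F₂ (k0 + 1 + i) (n0, n1, n2) = (2 : ℝ) ^ (-(k0 + 1 + i)) *
      ∫ u : ℝ × ℝ × ℝ, tr3 (smp F₀ (2 ^ k0) u.1 u.2.1) (smp F₁ (2 ^ k0) u.2.1 u.2.2)
        (smp F₂ (2 ^ k0) u.2.2 u.1) i n0 n1 n2
        ∂((cell (2 ^ k0)).prod ((cell (2 ^ k0)).prod (cell (2 ^ k0)))) := by
  have hd : (0 : ℝ) ≤ 2 ^ k0 := by positivity
  have D : ∀ n, Dec (volume.restrict (dyad (k0 + 1 + i) n)) (range (2 ^ (i + 1)))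
      (fun x u => 2 ^ k0 * ((2 ^ (i + 1) * n + x : ℕ) : ℝ) + u) (cell (2 ^ k0)) := fun n => by
    rw [dyad_eq]; exact dec_Ico hd _ _
  have D3 := (D n0).prod ((D n1).prod (D n2))
  have I := integrable_loc h0 h1 h2 (k0 + 1 + i) n0 n1 n2
  have ae : ∀ᵐ u : ℝ × ℝ × ℝ ∂((cell (2 ^ k0)).prod ((cell (2 ^ k0)).prod (cell (2 ^ k0)))),
      u ∈ Set.Ico 0 ((2 : ℝ) ^ k0) ×ˢ Set.Ico 0 ((2 : ℝ) ^ k0) ×ˢ Set.Ico 0 ((2 : ℝ) ^ k0) := by
    rw [prod_restrict, prod_restrict]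
    exact ae_restrict_mem (measurableSet_Ico.prod (measurableSet_Ico.prod measurableSet_Ico))
  have eq : (fun u : ℝ × ℝ × ℝ => ∑ p ∈ range (2 ^ (i + 1)) ×ˢ range (2 ^ (i + 1)) ×ˢ
        range (2 ^ (i + 1)),
      (fun x : ℝ × ℝ × ℝ => F₀ (x.1, x.2.1) * F₁ (x.2.1, x.2.2) * F₂ (x.2.2, x.1) *
        (haar (k0 + 1 + i) n0 x.1 * haar (k0 + 1 + i) n1 x.2.1 * haar (k0 + 1 + i) n2 x.2.2))
      (Prod.map (fun u => 2 ^ k0 * ((2 ^ (i + 1) * n0 + p.1 : ℕ) : ℝ) + u)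
        (Prod.map (fun u => 2 ^ k0 * ((2 ^ (i + 1) * n1 + p.2.1 : ℕ) : ℝ) + u)
          (fun u => 2 ^ k0 * ((2 ^ (i + 1) * n2 + p.2.2 : ℕ) : ℝ) + u)) u)) =ᵐ[
        (cell (2 ^ k0)).prod ((cell (2 ^ k0)).prod (cell (2 ^ k0)))]
      fun u : ℝ × ℝ × ℝ => tr3 (smp F₀ (2 ^ k0) u.1 u.2.1) (smp F₁ (2 ^ k0) u.2.1 u.2.2)
        (smp F₂ (2 ^ k0) u.2.2 u.1) i n0 n1 n2 := by
    filter_upwards [ae] with u hu
    obtain ⟨hu0, hu1, hu2⟩ := hu
    rw [tr3, Finset.sum_product]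
    refine Finset.sum_congr rfl fun x0 hx0 => ?_
    rw [Finset.sum_product]
    refine Finset.sum_congr rfl fun x1 hx1 => Finset.sum_congr rfl fun x2 hx2 => ?_
    simp only [Prod.map_fst, Prod.map_snd]
    rw [haar_cell k0 i n0 x0 (Finset.mem_range.mp hx0) hu0,
      haar_cell k0 i n1 x1 (Finset.mem_range.mp hx1) hu1,
      haar_cell k0 i n2 x2 (Finset.mem_range.mp hx2) hu2]
    rfl
  refine ⟨(integrable_finsetSum _ fun p hp => D3.integrable I hp).congr eq, ?_⟩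
  rw [← integral_congr_ae eq, ← D3.integral I, prod_restrict, prod_restrict]
  rfl

lemma cub_int {F : ℝ × ℝ → ℝ} (hF : MemLp F 3 quad2) {d : ℝ} (hd : 0 ≤ d) (K : ℕ) :
    Integrable (fun u : ℝ × ℝ => cub (smp F d u.1 u.2) K) ((cell d).prod (cell d)) ∧
    ∫ u : ℝ × ℝ, cub (smp F d u.1 u.2) K ∂((cell d).prod (cell d)) ≤ ∫ x, |F x| ^ 3 ∂quad2 := by
  have D := (dec_Ico hd 0 K).prod (dec_Ico hd 0 K)
  have sub : Set.Ico (d * ((0 : ℕ) : ℝ)) (d * (((0 : ℕ) : ℝ) + K)) ⊆ Set.Ici 0 := fun x hx => by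
    simpa using hx.1
  have l := prod_le_quad sub sub
  have I := (integrable_cube hF).mono_measure l
  have eq : ∀ u : ℝ × ℝ, ∑ p ∈ range K ×ˢ range K, (fun x => |F x| ^ 3)
      (Prod.map (fun u => d * ((0 + p.1 : ℕ) : ℝ) + u) (fun u => d * ((0 + p.2 : ℕ) : ℝ) + u) u) =
      cub (smp F d u.1 u.2) K := fun u => by
    rw [cub, Finset.sum_product]
    simp only [zero_add]
    rfl
  refine ⟨(integrable_finsetSum _ fun p hp => D.integrable I hp).congr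
    (Filter.Eventually.of_forall eq), ?_⟩
  rw [← integral_congr_ae (Filter.Eventually.of_forall eq), ← D.integral I]
  exact integral_mono_measure l (Filter.Eventually.of_forall fun x => by positivity)
    (integrable_cube hF)

theorem core_box {F₀ F₁ F₂ : ℝ × ℝ → ℝ} (h0 : MemLp F₀ 3 quad2) (h1 : MemLp F₁ 3 quad2)
    (h2 : MemLp F₂ 3 quad2) (k0 : ℤ) (M p : ℕ) :
    ∑ i ∈ range M, ∑ n0 ∈ range (2 ^ p), ∑ n1 ∈ range (2 ^ p),
      |locForm F₀ F₁ F₂ (k0 + 1 + i) (n0, n1, n0 ^^^ n1)| ≤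
      18 * (∫ x, |F₀ x| ^ 3 ∂quad2 + ∫ x, |F₁ x| ^ 3 ∂quad2 + ∫ x, |F₂ x| ^ 3 ∂quad2) := by
  have hd : (0 : ℝ) < 2 ^ k0 := by positivity
  have le := loc_eq h0 h1 h2 k0
  have tz := two_zpow k0
  generalize hdd : (2 : ℝ) ^ k0 = d at le hd tz
  set P := (cell d).prod ((cell d).prod (cell d)) with hP
  have ie : ∀ i n0 n1, Integrable (fun u : ℝ × ℝ × ℝ =>
      ell (smp F₀ d u.1 u.2.1) (smp F₁ d u.2.1 u.2.2) (smp F₂ d u.2.2 u.1) i n0 n1) P :=
    fun i n0 n1 => ((le i n0 n1 (n0 ^^^ n1)).1.abs).const_mul _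
  have b1 : ∀ i n0 n1 : ℕ, |locForm F₀ F₁ F₂ (k0 + 1 + i) (n0, n1, n0 ^^^ n1)| ≤ d⁻¹ *
      ∫ u : ℝ × ℝ × ℝ, ell (smp F₀ d u.1 u.2.1) (smp F₁ d u.2.1 u.2.2) (smp F₂ d u.2.2 u.1)
        i n0 n1 ∂P := fun i n0 n1 => by
    rw [(le i n0 n1 (n0 ^^^ n1)).2, abs_mul, zpow_neg, tz, abs_of_pos (by positivity), mul_inv,
      mul_assoc]
    refine mul_le_mul_of_nonneg_left ?_ (by positivity)
    simp only [ell]
    rw [integral_const_mul]
    exact mul_le_mul_of_nonneg_left (abs_integral_le_integral_abs) (by positivity)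
  have m01 : Measurable fun u : ℝ × ℝ × ℝ => (u.1, u.2.1) := by fun_prop
  have m12 : Measurable fun u : ℝ × ℝ × ℝ => (u.2.1, u.2.2) := by fun_prop
  have m20 : Measurable fun u : ℝ × ℝ × ℝ => (u.2.2, u.1) := by fun_prop
  have fin : cell d Set.univ ≠ ⊤ := by simp
  have vol : (cell d Set.univ).toReal = d := by simp [hd.le]
  obtain ⟨c0, d0⟩ := cub_int h0 hd.le (2 ^ (M + p))
  obtain ⟨c1, d1⟩ := cub_int h1 hd.le (2 ^ (M + p))
  obtain ⟨c2, d2⟩ := cub_int h2 hd.le (2 ^ (M + p))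
  have i0 := marg_integrable m01 fin (marg01 _ _ _) c0
  have i1 := marg_integrable m12 fin (marg12 _ _ _) c1
  have i2 := marg_integrable m20 fin (marg20 _ _ _) c2
  have e0 := marg_integral m01 (marg01 _ _ (cell d)) c0
  have e1 := marg_integral m12 (marg12 (cell d) _ _) c1
  have e2 := marg_integral m20 (marg20 _ (cell d) _) c2
  rw [vol, ← hP] at e0 e1 e2
  rw [← hP] at i0 i1 i2
  dsimp only at i0 i1 i2 e0 e1 e2
  calc ∑ i ∈ range M, ∑ n0 ∈ range (2 ^ p), ∑ n1 ∈ range (2 ^ p),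
        |locForm F₀ F₁ F₂ (k0 + 1 + i) (n0, n1, n0 ^^^ n1)|
      ≤ ∑ i ∈ range M, ∑ n0 ∈ range (2 ^ p), ∑ n1 ∈ range (2 ^ p), d⁻¹ *
        ∫ u : ℝ × ℝ × ℝ, ell (smp F₀ d u.1 u.2.1) (smp F₁ d u.2.1 u.2.2) (smp F₂ d u.2.2 u.1)
          i n0 n1 ∂P :=
        Finset.sum_le_sum fun i _ => Finset.sum_le_sum fun n0 _ => Finset.sum_le_sum fun n1 _ =>
          b1 i n0 n1
    _ = d⁻¹ * ∫ u : ℝ × ℝ × ℝ, ∑ i ∈ range M, ∑ n0 ∈ range (2 ^ p), ∑ n1 ∈ range (2 ^ p),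
          ell (smp F₀ d u.1 u.2.1) (smp F₁ d u.2.1 u.2.2) (smp F₂ d u.2.2 u.1) i n0 n1 ∂P := by
        rw [integral_finsetSum _ fun i _ => integrable_finsetSum _ fun n0 _ =>
          integrable_finsetSum _ fun n1 _ => ie i n0 n1, Finset.mul_sum]
        refine Finset.sum_congr rfl fun i _ => ?_
        rw [integral_finsetSum _ fun n0 _ => integrable_finsetSum _ fun n1 _ => ie i n0 n1,
          Finset.mul_sum]
        refine Finset.sum_congr rfl fun n0 _ => ?_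
        rw [integral_finsetSum _ fun n1 _ => ie i n0 n1, Finset.mul_sum]
    _ ≤ d⁻¹ * ∫ u : ℝ × ℝ × ℝ, 18 * (cub (smp F₀ d u.1 u.2.1) (2 ^ (M + p)) +
          cub (smp F₁ d u.2.1 u.2.2) (2 ^ (M + p)) + cub (smp F₂ d u.2.2 u.1) (2 ^ (M + p))) ∂P := by
        refine mul_le_mul_of_nonneg_left ?_ (by positivity)
        refine integral_mono (integrable_finsetSum _ fun i _ => integrable_finsetSum _ fun n0 _ =>
          integrable_finsetSum _ fun n1 _ => ie i n0 n1) (((i0.add i1).add i2).const_mul 18)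
          fun u => discrete _ _ _ M p
    _ = 18 * (∫ u : ℝ × ℝ, cub (smp F₀ d u.1 u.2) (2 ^ (M + p)) ∂((cell d).prod (cell d)) +
          ∫ u : ℝ × ℝ, cub (smp F₁ d u.1 u.2) (2 ^ (M + p)) ∂((cell d).prod (cell d)) +
          ∫ u : ℝ × ℝ, cub (smp F₂ d u.1 u.2) (2 ^ (M + p)) ∂((cell d).prod (cell d))) := by
        have a1 := integral_add (i0.add i1) i2
        simp only [Pi.add_apply] at a1
        rw [integral_const_mul, a1, integral_add i0 i1, e0, e1, e2]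
        field_simp
    _ ≤ _ := by linarith

end Vale.Agent.P075
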