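import Mathlib.MeasureTheory.Function.LpSeminorm.Defs
import Mathlib.MeasureTheory.Integral.Bochner.Basic
import Mathlib.MeasureTheory.Measure.Lebesgue.Basic
import Mathlib.Topology.Algebra.InfiniteSum.Real

/-! Definitions for the dyadic model of the triangular Hilbert form. -/

namespace Vale.Agent.P075

open MeasureTheory

/-- The dyadic interval `[2^k n, 2^k (n+1))` of generation `k` and index `n`. -/
def dyad (k : ℤ) (n : ℕ) : Set ℝ := Set.Ico ((2 : ℝ) ^ k * n) ((2 : ℝ) ^ k * (n + 1))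

/-- The Haar function `1_left - 1_right` of the dyadic interval `dyad k n`. -/
noncomputable def haar (k : ℤ) (n : ℕ) (x : ℝ) : ℝ :=
  (Set.Ico ((2 : ℝ) ^ k * n) ((2 : ℝ) ^ k * (n + 1 / 2))).indicator (fun _ => (1 : ℝ)) x -
    (Set.Ico ((2 : ℝ) ^ k * (n + 1 / 2)) ((2 : ℝ) ^ k * (n + 1))).indicator (fun _ => (1 : ℝ)) x

/-- Index triples whose bitwise XOR vanishes. -/
def Adm : Set (ℕ × ℕ × ℕ) := {n | n.1 ^^^ n.2.1 ^^^ n.2.2 = 0}

/-- The local trilinear form `L_I` for `I = (dyad k n.1, dyad k n.2.1, dyad k n.2.2)`. -/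
noncomputable def locForm (F₀ F₁ F₂ : ℝ × ℝ → ℝ) (k : ℤ) (n : ℕ × ℕ × ℕ) : ℝ :=
  (2 : ℝ) ^ (-k) * ∫ x in dyad k n.1 ×ˢ dyad k n.2.1 ×ˢ dyad k n.2.2,
    F₀ (x.1, x.2.1) * F₁ (x.2.1, x.2.2) * F₂ (x.2.2, x.1) *
      (haar k n.1 x.1 * haar k n.2.1 x.2.1 * haar k n.2.2 x.2.2)

/-- The dyadic triangular form with scales in `S` and coefficients `ε`. -/
noncomputable def dyadForm (S : Finset ℤ) (ε : ℤ → ℝ) (F₀ F₁ F₂ : ℝ × ℝ → ℝ) : ℝ :=
  ∑ k ∈ S, ε k * ∑' n : Adm, locForm F₀ F₁ F₂ k n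

/-- Lebesgue measure on the quadrant `[0,∞)^2`. -/
noncomputable def quad2 : Measure (ℝ × ℝ) := volume.restrict (Set.Ici 0 ×ˢ Set.Ici 0)

end Vale.Agent.P075
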