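import Mathlib.Analysis.Matrix.Spectrum
import Mathlib.Analysis.SpecialFunctions.Pow.Real
import Mathlib.Analysis.SpecialFunctions.Sqrt

/-! Elementary real matrix inequalities used for the dyadic triangular form. -/

namespace Vale.Agent.P075

open Matrix Finset

variable {l m n k : Type*} [Fintype l] [Fintype m] [Fintype n] [Fintype k]

/-- Euclidean contraction. -/
def Contr (U : Matrix m n ℝ) : Prop := ∀ y, (U *ᵥ y) ⬝ᵥ (U *ᵥ y) ≤ y ⬝ᵥ y

/-- The block matrix with rows `(S, -M)` and `(-Mᵀ, S')` has a nonnegative quadratic form. -/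
def Dom (S : Matrix m m ℝ) (M : Matrix m n ℝ) (S' : Matrix n n ℝ) : Prop :=
  ∀ x y, 2 * (x ⬝ᵥ M *ᵥ y) ≤ x ⬝ᵥ S *ᵥ x + y ⬝ᵥ S' *ᵥ y

/-- Nonnegative quadratic form. -/
def Nn (S : Matrix m m ℝ) : Prop := ∀ x, 0 ≤ x ⬝ᵥ S *ᵥ x

/-- Positive quadratic form. -/
def Pd (S : Matrix m m ℝ) : Prop := ∀ x, x ≠ 0 → 0 < x ⬝ᵥ S *ᵥ x

lemma Pd.nn {S : Matrix m m ℝ} (h : Pd S) : Nn S := by
  intro x
  by_cases hx : x = 0
  · simp [hx]
  · exact (h x hx).le

lemma dot_self_nonneg (x : m → ℝ) : 0 ≤ x ⬝ᵥ x :=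
  Finset.sum_nonneg fun i _ => mul_self_nonneg (x i)

lemma dot_self_pos {x : m → ℝ} (hx : x ≠ 0) : 0 < x ⬝ᵥ x := by
  rcases (dot_self_nonneg x).lt_or_eq with h | h
  · exact h
  · exact absurd (dotProduct_self_eq_zero.mp h.symm) hx

lemma two_dot_le (x y : m → ℝ) : 2 * (x ⬝ᵥ y) ≤ x ⬝ᵥ x + y ⬝ᵥ y := by
  have h := dot_self_nonneg (x - y)
  simp only [sub_dotProduct, dotProduct_sub] at h
  rw [dotProduct_comm y x] at h
  linarith

lemma dot_mulVec_eq (M : Matrix m n ℝ) (x : m → ℝ) (y : n → ℝ) :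
    x ⬝ᵥ M *ᵥ y = (Mᵀ *ᵥ x) ⬝ᵥ y := by
  rw [dotProduct_mulVec, mulVec_transpose]

lemma Contr.transpose {U : Matrix m n ℝ} (h : Contr U) : Contr Uᵀ := by
  intro x
  have h1 := two_dot_le x (U *ᵥ (Uᵀ *ᵥ x))
  have h2 := h (Uᵀ *ᵥ x)
  rw [dot_mulVec_eq] at h1
  linarith

lemma Contr.mul {U : Matrix l m ℝ} {V : Matrix m n ℝ} (hU : Contr U) (hV : Contr V) :
    Contr (U * V) := by
  intro y
  rw [← mulVec_mulVec]
  exact (hU _).trans (hV y)

lemma Contr.neg {U : Matrix m n ℝ} (h : Contr U) : Contr (-U) := by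
  intro y
  simpa [neg_mulVec] using h y

lemma contr_of_orth [DecidableEq n] {U : Matrix m n ℝ} (h : Uᵀ * U = 1) : Contr U := by
  intro y
  rw [dot_mulVec_eq, mulVec_mulVec, h, one_mulVec]

omit [Fintype l] [Fintype k] in
lemma entry_eq (X : Matrix m l ℝ) (M : Matrix m n ℝ) (Y : Matrix n k ℝ) (i : l) (j : k) :
    (Xᵀ * M * Y) i j = (fun a => X a i) ⬝ᵥ M *ᵥ (fun b => Y b j) := by
  simp only [mul_apply, transpose_apply, dotProduct, mulVec, Finset.sum_mul, Finset.mul_sum]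
  rw [Finset.sum_comm]
  exact Finset.sum_congr rfl fun a _ => Finset.sum_congr rfl fun b _ => by ring

lemma Dom.trace_le {S : Matrix m m ℝ} {M : Matrix m n ℝ} {S' : Matrix n n ℝ} (h : Dom S M S')
    (X : Matrix m l ℝ) (Y : Matrix n l ℝ) :
    2 * trace (Xᵀ * M * Y) ≤ trace (Xᵀ * S * X) + trace (Yᵀ * S' * Y) := by
  simp only [trace, diag_apply, entry_eq, Finset.mul_sum, ← Finset.sum_add_distrib]
  exact Finset.sum_le_sum fun i _ => h _ _

lemma Dom.conj {S : Matrix m m ℝ} {M : Matrix m n ℝ} {S' : Matrix n n ℝ} (h : Dom S M S')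
    (P : Matrix l m ℝ) (Q : Matrix n k ℝ) : Dom (P * S * Pᵀ) (P * M * Q) (Qᵀ * S' * Q) := by
  intro x y
  have := h (Pᵀ *ᵥ x) (Q *ᵥ y)
  simp only [← mulVec_mulVec]
  rw [dot_mulVec_eq P, dot_mulVec_eq P, dot_mulVec_eq Qᵀ, transpose_transpose]
  exact this

lemma Nn.conj {S : Matrix m m ℝ} (h : Nn S) (P : Matrix l m ℝ) : Nn (P * S * Pᵀ) := by
  intro x
  simp only [← mulVec_mulVec]
  rw [dot_mulVec_eq P]
  exact h _

lemma nn_diagonal [DecidableEq m] {d : m → ℝ} (hd : ∀ i, 0 ≤ d i) : Nn (diagonal d) := by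
  intro x
  simp only [dotProduct, mulVec_diagonal]
  exact Finset.sum_nonneg fun i _ => by have := hd i; nlinarith [mul_self_nonneg (x i)]

/-- Spectral theorem for real symmetric matrices. -/
lemma spec [DecidableEq n] (M : Matrix n n ℝ) (h : Mᵀ = M) :
    ∃ (d : n → ℝ) (O : Matrix n n ℝ), Oᵀ * O = 1 ∧ O * Oᵀ = 1 ∧ M = O * diagonal d * Oᵀ := by
  have hM : M.IsHermitian := by
    rw [IsHermitian, conjTranspose_eq_transpose_of_trivial, h]
  refine ⟨hM.eigenvalues, (hM.eigenvectorUnitary : Matrix n n ℝ), ?_, ?_, ?_⟩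
  · have := Unitary.coe_star_mul_self hM.eigenvectorUnitary
    rwa [star_eq_conjTranspose, conjTranspose_eq_transpose_of_trivial] at this
  · have := Unitary.coe_mul_star_self hM.eigenvectorUnitary
    rwa [Unitary.coe_star, star_eq_conjTranspose, conjTranspose_eq_transpose_of_trivial] at this
  · have := hM.spectral_theorem
    rw [Unitary.conjStarAlgAut_apply, star_eq_conjTranspose,
      conjTranspose_eq_transpose_of_trivial] at this
    simpa using this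

lemma diag_eq [DecidableEq n] {M O : Matrix n n ℝ} {d : n → ℝ} (h1 : Oᵀ * O = 1)
    (hM : M = O * diagonal d * Oᵀ) : Oᵀ * M * O = diagonal d := by
  rw [hM]
  calc Oᵀ * (O * diagonal d * Oᵀ) * O = (Oᵀ * O) * diagonal d * (Oᵀ * O) := by
        simp only [Matrix.mul_assoc]
    _ = diagonal d := by rw [h1]; simp

lemma eig_eq [DecidableEq n] {M O : Matrix n n ℝ} {d : n → ℝ} (h1 : Oᵀ * O = 1)
    (hM : M = O * diagonal d * Oᵀ) (i : n) :
    d i = (fun a => O a i) ⬝ᵥ M *ᵥ (fun a => O a i) := by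
  rw [← entry_eq, diag_eq h1 hM, diagonal_apply_eq]

lemma col_dot [DecidableEq n] {O : Matrix n n ℝ} (h1 : Oᵀ * O = 1) (i : n) :
    (fun a => O a i) ⬝ᵥ (fun a => O a i) = 1 := by
  have : (Oᵀ * O) i i = 1 := by rw [h1]; simp
  simpa [mul_apply, dotProduct] using this

lemma col_ne_zero [DecidableEq n] {O : Matrix n n ℝ} (h1 : Oᵀ * O = 1) (i : n) :
    (fun a => O a i) ≠ 0 := by
  intro h
  have := col_dot h1 i
  rw [h] at this
  simp at this

lemma mulVec_col [DecidableEq n] {M O : Matrix n n ℝ} {d : n → ℝ} (h1 : Oᵀ * O = 1)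
    (hM : M = O * diagonal d * Oᵀ) (i : n) :
    M *ᵥ (fun a => O a i) = d i • (fun a => O a i) := by
  have h2 : M * O = O * diagonal d := by
    rw [hM, Matrix.mul_assoc, h1, Matrix.mul_one]
  funext a
  have := congrFun (congrFun h2 a) i
  rw [mul_diagonal] at this
  simp only [mul_apply] at this
  simp only [mulVec, dotProduct, Pi.smul_apply, smul_eq_mul]
  rw [this]; ring

lemma nn_of_eig [DecidableEq n] {M : Matrix n n ℝ} (h : Mᵀ = M)
    (he : ∀ (v : n → ℝ) (μ : ℝ), v ≠ 0 → M *ᵥ v = μ • v → 0 ≤ μ) : Nn M := by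
  obtain ⟨d, O, h1, -, hM⟩ := spec M h
  rw [hM]
  exact (nn_diagonal fun i => he _ _ (col_ne_zero h1 i) (mulVec_col h1 hM i)).conj O

/-- Positivity of the Lyapunov map. -/
lemma lyapunov [DecidableEq n] {N Z : Matrix n n ℝ} (hN : Pd N) (_hNs : Nᵀ = N) (hZ : Zᵀ = Z)
    (h : Nn (N * Z + Z * N)) : Nn Z := by
  refine nn_of_eig hZ fun v μ hv hμ => ?_
  have h1 := h v
  have h2 := hN v hv
  rw [add_mulVec, dotProduct_add, ← mulVec_mulVec, ← mulVec_mulVec, hμ, dot_mulVec_eq Z, hZ, hμ,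
    mulVec_smul, dotProduct_smul, smul_dotProduct, smul_eq_mul] at h1
  by_contra hneg
  push Not at hneg
  nlinarith

/-- Operator monotonicity of the square root, in the form needed here. -/
lemma heinz [DecidableEq n] {S M : Matrix n n ℝ} (hS : Nn S) (hSs : Sᵀ = S) (hM : Mᵀ = M)
    (h : ∀ v, (M *ᵥ v) ⬝ᵥ (M *ᵥ v) ≤ (S *ᵥ v) ⬝ᵥ (S *ᵥ v)) : Nn (S - M) := by
  refine nn_of_eig (by rw [transpose_sub, hSs, hM]) fun v μ hv hμ => ?_
  have h1 := h v
  have h2 := hS v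
  have h3 := dot_self_pos hv
  have h4 : M *ᵥ v = S *ᵥ v - μ • v := by rw [← hμ, sub_mulVec]; abel
  rw [h4] at h1
  simp only [sub_dotProduct, dotProduct_sub, dotProduct_smul, smul_dotProduct, smul_eq_mul] at h1
  rw [dotProduct_comm (S *ᵥ v) v] at h1
  by_contra hneg
  push Not at hneg
  have : 0 < μ * μ * (v ⬝ᵥ v) := mul_pos (mul_pos_of_neg_of_neg hneg hneg) h3
  nlinarith

lemma dom_of_sq [DecidableEq m] [DecidableEq n] {S : Matrix m m ℝ} {M : Matrix m n ℝ}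
    {S' : Matrix n n ℝ} (hS : Nn S) (hSs : Sᵀ = S) (hS' : Nn S') (hSs' : S'ᵀ = S')
    (h : ∀ x, (Mᵀ *ᵥ x) ⬝ᵥ (Mᵀ *ᵥ x) ≤ (S *ᵥ x) ⬝ᵥ (S *ᵥ x))
    (h' : ∀ y, (M *ᵥ y) ⬝ᵥ (M *ᵥ y) ≤ (S' *ᵥ y) ⬝ᵥ (S' *ᵥ y)) : Dom S M S' := by
  have key : Nn (fromBlocks S 0 0 S' - fromBlocks 0 M Mᵀ 0) := by
    refine heinz ?_ ?_ ?_ ?_
    · intro v
      rw [← Sum.elim_comp_inl_inr v, fromBlocks_mulVec, sumElim_dotProduct_sumElim]
      simp only [Sum.elim_comp_inl, Sum.elim_comp_inr, zero_mulVec, add_zero, zero_add]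
      exact add_nonneg (hS _) (hS' _)
    · rw [fromBlocks_transpose, hSs, hSs']; simp
    · rw [fromBlocks_transpose]; simp
    · intro v
      rw [fromBlocks_mulVec, fromBlocks_mulVec, sumElim_dotProduct_sumElim,
        sumElim_dotProduct_sumElim]
      simp only [zero_mulVec, add_zero, zero_add]
      have := h (v ∘ Sum.inl)
      have := h' (v ∘ Sum.inr)
      linarith
  intro x y
  have := key (Sum.elim x y)
  rw [sub_mulVec, dotProduct_sub, fromBlocks_mulVec, fromBlocks_mulVec,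
    sumElim_dotProduct_sumElim, sumElim_dotProduct_sumElim] at this
  simp only [Sum.elim_comp_inl, Sum.elim_comp_inr, zero_mulVec, add_zero, zero_add] at this
  rw [dot_mulVec_eq Mᵀ, transpose_transpose, dotProduct_comm (M *ᵥ y) x] at this
  linarith

end Vale.Agent.P075
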