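import Vale.Agent.P075.Cont

/-! The uniform bound for the dyadic triangular form. -/

namespace Vale.Agent.P075

open MeasureTheory Finset

lemma sum_adm_le (u : Finset Adm) (f : ℕ × ℕ × ℕ → ℝ) (hf : ∀ n, 0 ≤ f n) (p : ℕ)
    (hp : ∀ n ∈ u, n.1.1 < 2 ^ p ∧ n.1.2.1 < 2 ^ p) :
    ∑ n ∈ u, f n ≤ ∑ n0 ∈ range (2 ^ p), ∑ n1 ∈ range (2 ^ p), f (n0, n1, n0 ^^^ n1) := by
  have e : ∀ n : Adm, n.1 = (n.1.1, n.1.2.1, n.1.1 ^^^ n.1.2.1) := fun n => by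
    have h : n.1.1 ^^^ n.1.2.1 ^^^ n.1.2.2 = 0 := n.2
    rw [Nat.xor_eq_zero_iff] at h
    rw [h]
  rw [← Finset.sum_product (f := fun q : ℕ × ℕ => f (q.1, q.2, q.1 ^^^ q.2))]
  have inj : Set.InjOn (fun n : Adm => (n.1.1, n.1.2.1)) u := by
    intro n _ m _ h
    simp only [Prod.mk.injEq] at h
    apply Subtype.ext
    rw [e n, e m, h.1, h.2]
  calc ∑ n ∈ u, f n = ∑ q ∈ u.image (fun n : Adm => (n.1.1, n.1.2.1)),
        f (q.1, q.2, q.1 ^^^ q.2) := by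
        rw [Finset.sum_image inj]
        exact Finset.sum_congr rfl fun n _ => by rw [← e n]
    _ ≤ _ := by
        refine Finset.sum_le_sum_of_subset_of_nonneg ?_ fun q _ _ => hf _
        intro q hq
        obtain ⟨n, hn, rfl⟩ := Finset.mem_image.mp hq
        simpa using hp n hn

lemma exists_box (u : Finset Adm) : ∃ p : ℕ, ∀ n ∈ u, n.1.1 < 2 ^ p ∧ n.1.2.1 < 2 ^ p := by
  refine ⟨u.sup fun n => n.1.1 + n.1.2.1, fun n hn => ?_⟩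
  have h1 : n.1.1 + n.1.2.1 ≤ u.sup fun n => n.1.1 + n.1.2.1 :=
    Finset.le_sup (f := fun n : Adm => n.1.1 + n.1.2.1) hn
  have h2 := Nat.lt_two_pow_self (n := u.sup fun n => n.1.1 + n.1.2.1)
  omega

lemma sum_scales_le (S : Finset ℤ) : ∃ (k0 : ℤ) (M : ℕ), ∀ g : ℤ → ℝ, (∀ k, 0 ≤ g k) →
    ∑ k ∈ S, g k ≤ ∑ i ∈ range M, g (k0 + 1 + i) := by
  obtain ⟨a, ha⟩ := S.finite_toSet.bddBelow
  obtain ⟨b, hb⟩ := S.finite_toSet.bddAbove
  refine ⟨a - 1, (b - a + 1).toNat, fun g hg => ?_⟩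
  rw [← Finset.sum_image (s := range (b - a + 1).toNat) (g := fun i : ℕ => a - 1 + 1 + (i : ℤ))
    (f := g) (fun i _ j _ h => by simpa using h)]
  refine Finset.sum_le_sum_of_subset_of_nonneg (fun k hk => ?_) fun k _ _ => hg k
  have h1 : a ≤ k := ha hk
  have h2 : k ≤ b := hb hk
  exact Finset.mem_image.mpr ⟨(k - a).toNat, Finset.mem_range.mpr (by omega), by omega⟩

theorem core_fin {F₀ F₁ F₂ : ℝ × ℝ → ℝ} (h0 : MemLp F₀ 3 quad2) (h1 : MemLp F₁ 3 quad2)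
    (h2 : MemLp F₂ 3 quad2) (S : Finset ℤ) (u : Finset Adm) :
    ∑ k ∈ S, ∑ n ∈ u, |locForm F₀ F₁ F₂ k n| ≤
      18 * (∫ x, |F₀ x| ^ 3 ∂quad2 + ∫ x, |F₁ x| ^ 3 ∂quad2 + ∫ x, |F₂ x| ^ 3 ∂quad2) := by
  obtain ⟨p, hp⟩ := exists_box u
  obtain ⟨k0, M, hM⟩ := sum_scales_le S
  refine (hM (fun k => ∑ n ∈ u, |locForm F₀ F₁ F₂ k n|)
    fun k => Finset.sum_nonneg fun n _ => abs_nonneg _).trans ?_
  refine le_trans (Finset.sum_le_sum fun i _ => ?_) (core_box h0 h1 h2 k0 M p)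
  exact sum_adm_le u (fun n => |locForm F₀ F₁ F₂ (k0 + 1 + i) n|) (fun n => abs_nonneg _) p hp

lemma locForm_smul (F₀ F₁ F₂ : ℝ × ℝ → ℝ) (r s t : ℝ) (k : ℤ) (n : ℕ × ℕ × ℕ) :
    locForm (r • F₀) (s • F₁) (t • F₂) k n = r * s * t * locForm F₀ F₁ F₂ k n := by
  unfold locForm
  rw [mul_left_comm (r * s * t), ← integral_const_mul (r * s * t)]
  congr 2
  funext x
  simp only [Pi.smul_apply, smul_eq_mul]
  ring

lemma cube_smul (F : ℝ × ℝ → ℝ) {r : ℝ} (hr : 0 ≤ r) :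
    ∫ x, |(r • F) x| ^ 3 ∂quad2 = r ^ 3 * ∫ x, |F x| ^ 3 ∂quad2 := by
  rw [← integral_const_mul]
  congr 1
  funext x
  rw [Pi.smul_apply, smul_eq_mul, abs_mul, abs_of_nonneg hr, mul_pow]

lemma cube_eq {F : ℝ × ℝ → ℝ} (hF : MemLp F 3 quad2) :
    ∫ x, |F x| ^ 3 ∂quad2 = (eLpNorm F 3 quad2).toReal ^ 3 := by
  rw [hF.eLpNorm_eq_integral_rpow_norm (by norm_num) (by norm_num)]
  have h : 0 ≤ ∫ x, |F x| ^ 3 ∂quad2 := integral_nonneg fun x => by positivity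
  have e : ∫ a, ‖F a‖ ^ (3 : ENNReal).toReal ∂quad2 = ∫ x, |F x| ^ 3 ∂quad2 := by simp
  rw [e, ENNReal.toReal_ofReal (by positivity)]
  have : (3 : ENNReal).toReal⁻¹ = ((3 : ℕ) : ℝ)⁻¹ := by simp
  rw [this, Real.rpow_inv_natCast_pow h (by norm_num)]

lemma homog {X a b c : ℝ} (ha : 0 ≤ a) (hb : 0 ≤ b) (hc : 0 ≤ c)
    (h : ∀ r s t : ℝ, 0 < r → 0 < s → 0 < t →
      r * s * t * X ≤ 18 * (r ^ 3 * a ^ 3 + s ^ 3 * b ^ 3 + t ^ 3 * c ^ 3)) :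
    X ≤ 54 * a * b * c := by
  have key : ∀ e : ℝ, 0 < e → X ≤ 54 * (a + e) * (b + e) * (c + e) := by
    intro e he
    have one : ∀ y : ℝ, 0 ≤ y → (y + e)⁻¹ ^ 3 * y ^ 3 ≤ 1 := fun y hy => by
      rw [← mul_pow]
      refine pow_le_one₀ (by positivity) ?_
      rw [inv_mul_le_iff₀ (by positivity)]; linarith
    have h1 := h (a + e)⁻¹ (b + e)⁻¹ (c + e)⁻¹ (by positivity) (by positivity) (by positivity)
    have h2 : (a + e)⁻¹ * (b + e)⁻¹ * (c + e)⁻¹ * X ≤ 54 := by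
      have := one a ha
      have := one b hb
      have := one c hc
      linarith
    rw [← mul_inv, ← mul_inv, inv_mul_le_iff₀ (by positivity)] at h2
    linarith
  have lim : Filter.Tendsto (fun e : ℝ => 54 * (a + e) * (b + e) * (c + e))
      (nhdsWithin 0 (Set.Ioi 0)) (nhds (54 * a * b * c)) := by
    have : Continuous fun e : ℝ => 54 * (a + e) * (b + e) * (c + e) := by fun_prop
    have h2 := this.tendsto 0
    simp only [add_zero] at h2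
    exact h2.mono_left nhdsWithin_le_nhds
  exact ge_of_tendsto lim (eventually_nhdsWithin_of_forall key)

theorem bound_fin {F₀ F₁ F₂ : ℝ × ℝ → ℝ} (h0 : MemLp F₀ 3 quad2) (h1 : MemLp F₁ 3 quad2)
    (h2 : MemLp F₂ 3 quad2) (S : Finset ℤ) (u : Finset Adm) :
    ∑ k ∈ S, ∑ n ∈ u, |locForm F₀ F₁ F₂ k n| ≤ 54 * (eLpNorm F₀ 3 quad2).toReal *
      (eLpNorm F₁ 3 quad2).toReal * (eLpNorm F₂ 3 quad2).toReal := by
  refine homog ENNReal.toReal_nonneg ENNReal.toReal_nonneg ENNReal.toReal_nonneg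
    fun r s t hr hs ht => ?_
  have := core_fin (h0.const_smul r) (h1.const_smul s) (h2.const_smul t) S u
  rw [cube_smul _ hr.le, cube_smul _ hs.le, cube_smul _ ht.le, cube_eq h0, cube_eq h1,
    cube_eq h2] at this
  simp only [locForm_smul, abs_mul, abs_of_pos hr, abs_of_pos hs, abs_of_pos ht,
    ← Finset.mul_sum] at this
  exact this

theorem summable_abs {F₀ F₁ F₂ : ℝ × ℝ → ℝ} (h0 : MemLp F₀ 3 quad2) (h1 : MemLp F₁ 3 quad2)
    (h2 : MemLp F₂ 3 quad2) (k : ℤ) : Summable fun n : Adm => |locForm F₀ F₁ F₂ k n| :=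
  summable_of_sum_le (fun _ => abs_nonneg _) fun u => by
    simpa using bound_fin h0 h1 h2 {k} u

theorem bound_abs {F₀ F₁ F₂ : ℝ × ℝ → ℝ} (h0 : MemLp F₀ 3 quad2) (h1 : MemLp F₁ 3 quad2)
    (h2 : MemLp F₂ 3 quad2) (S : Finset ℤ) :
    ∑ k ∈ S, ∑' n : Adm, |locForm F₀ F₁ F₂ k n| ≤ 54 * (eLpNorm F₀ 3 quad2).toReal *
      (eLpNorm F₁ 3 quad2).toReal * (eLpNorm F₂ 3 quad2).toReal := by
  rw [← Summable.tsum_finsetSum fun k _ => summable_abs h0 h1 h2 k]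
  refine Real.tsum_le_of_sum_le (fun n => Finset.sum_nonneg fun k _ => abs_nonneg _) fun u => ?_
  rw [Finset.sum_comm]
  exact bound_fin h0 h1 h2 S u

theorem main {F₀ F₁ F₂ : ℝ × ℝ → ℝ} (h0 : MemLp F₀ 3 quad2) (h1 : MemLp F₁ 3 quad2)
    (h2 : MemLp F₂ 3 quad2) (S : Finset ℤ) (ε : ℤ → ℝ) (hε : ∀ k, |ε k| ≤ 1) :
    |dyadForm S ε F₀ F₁ F₂| ≤ 54 * (eLpNorm F₀ 3 quad2).toReal *
      (eLpNorm F₁ 3 quad2).toReal * (eLpNorm F₂ 3 quad2).toReal := by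
  refine le_trans ?_ (bound_abs h0 h1 h2 S)
  refine (Finset.abs_sum_le_sum_abs _ _).trans (Finset.sum_le_sum fun k _ => ?_)
  rw [abs_mul]
  refine (mul_le_of_le_one_left (abs_nonneg _) (hε k)).trans ?_
  exact norm_tsum_le_tsum_norm (f := fun n : Adm => locForm F₀ F₁ F₂ k n)
    (summable_abs h0 h1 h2 k)

end Vale.Agent.P075
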