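import Vale.Agent.P075.Pack

/-! The one-step inequality for the Bellman function. -/

namespace Vale.Agent.P075

open Matrix Finset

variable {l m n l' m' n' : Type*} [Fintype l] [Fintype m] [Fintype n]
  [Fintype l'] [Fintype m'] [Fintype n']

/-- `Xᵀ X ≤ V` as quadratic forms. -/
def Sub (X : Matrix m n ℝ) (V : Matrix n n ℝ) : Prop :=
  ∀ x, (X *ᵥ x) ⬝ᵥ (X *ᵥ x) ≤ x ⬝ᵥ V *ᵥ x

lemma Sub.neg {X : Matrix m n ℝ} {V : Matrix n n ℝ} (h : Sub X V) : Sub (-X) V := by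
  intro x
  simpa [neg_mulVec] using h x

section

variable [DecidableEq n] {V J N Ni Z : Matrix n n ℝ}

lemma Pack.sq_le (h : Pack V J N Ni Z) {X : Matrix m n ℝ} (hX : Sub X V) (x : n → ℝ) :
    (X *ᵥ x) ⬝ᵥ (X *ᵥ x) ≤ (N *ᵥ x) ⬝ᵥ (N *ᵥ x) := by
  have := hX x
  rwa [← h.sq, ← mulVec_mulVec, dot_mulVec_eq N, h.Ns] at this

lemma Pack.contr_right (h : Pack V J N Ni Z) {X : Matrix m n ℝ} (hX : Sub X V) :
    Contr (X * Ni) := by
  intro y
  have := h.sq_le hX (Ni *ᵥ y)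
  rwa [mulVec_mulVec, mulVec_mulVec, h.inv1, one_mulVec] at this

lemma Pack.contr_left (h : Pack V J N Ni Z) {X : Matrix n m ℝ} (hX : Sub Xᵀ V) :
    Contr (Ni * X) := by
  have := (h.contr_right hX).transpose
  rwa [transpose_mul, transpose_transpose, h.Nis] at this

end

section

variable [DecidableEq l] [DecidableEq m] [DecidableEq n]
  {V0 J0 N0 Ni0 Z0 : Matrix l l ℝ} {V1 J1 N1 Ni1 Z1 : Matrix m m ℝ}
  {V2 J2 N2 Ni2 Z2 : Matrix n n ℝ}
  {A : Matrix l m ℝ} {B : Matrix m n ℝ} {C : Matrix n l ℝ}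

omit [DecidableEq m] in
lemma grp (P0 : Pack V0 J0 N0 Ni0 Z0) (P2 : Pack V2 J2 N2 Ni2 Z2) (c1 : Contr J1)
    (hA0 : Sub Aᵀ V0) (hB2 : Sub B V2) (hC2 : Sub Cᵀ V2) (hC0 : Sub C V0) :
    2 * trace (A * J1 * B * (Ni2 * Z2) * C * (Z0 * Ni0)) ≤
      trace (Z2 * N2 * Z2) + trace (Z0 * N0 * Z0) := by
  have d : Dom N2 C N0 := dom_of_sq P2.Np P2.Ns P0.Np P0.Ns (P2.sq_le hC2) (P0.sq_le hC0)
  have u : Contr (Ni0 * A * J1 * (B * Ni2)) :=
    ((P0.contr_left hA0).mul c1).mul (P2.contr_right hB2)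
  have q := quad d P2.Np P2.Ns P2.Zs P0.Zs u
  have e : trace (A * J1 * B * (Ni2 * Z2) * C * (Z0 * Ni0)) =
      trace (Ni0 * A * J1 * (B * Ni2) * Z2 * C * Z0) := by
    rw [← Matrix.mul_assoc _ Z0 Ni0, trace_mul_comm]
    simp only [Matrix.mul_assoc]
  rw [e]
  exact q

lemma trace_bound (P0 : Pack V0 J0 N0 Ni0 Z0) (P1 : Pack V1 J1 N1 Ni1 Z1)
    (P2 : Pack V2 J2 N2 Ni2 Z2) (c0 : Contr J0) (c1 : Contr J1) (c2 : Contr J2)
    (hA0 : Sub Aᵀ V0) (hA1 : Sub A V1) (hB1 : Sub Bᵀ V1) (hB2 : Sub B V2)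
    (hC2 : Sub Cᵀ V2) (hC0 : Sub C V0) :
    trace (A * J1 * B * J2 * C * J0) ≤
      4 / 3 * (trace (Z0 * N0 * Z0) + trace (Z1 * N1 * Z1) + trace (Z2 * N2 * Z2)) := by
  have gC := grp P0 P2 c1 hA0 hB2 hC2 hC0
  have gA := grp P1 P0 c2 hB1 hC0 hA0 hA1
  have gB := grp P2 P1 c0 hC2 hA1 hB1 hB2
  obtain ⟨z0, O0, h0, e0, k0⟩ := P0.cube
  obtain ⟨z1, O1, h1, e1, k1⟩ := P1.cube
  obtain ⟨z2, O2, h2, e2, k2⟩ := P2.cube
  have tp := cubic h0 e0 h1 e1 h2 e2 (P0.contr_left hA0) (P1.contr_left hB1) (P2.contr_left hC2)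
  have tm := cubic h0 e0 h1 e1 h2 e2 (P1.contr_right hA1) (P2.contr_right hB2)
    (P0.contr_right hC0)
  have eA : trace (B * J2 * C * (Ni0 * Z0) * A * (Z1 * Ni1)) =
      trace (A * (Z1 * Ni1) * B * J2 * C * (Ni0 * Z0)) := by
    rw [Matrix.mul_assoc _ A, trace_mul_comm]
    simp only [Matrix.mul_assoc]
  have eB : trace (C * J0 * A * (Ni1 * Z1) * B * (Z2 * Ni2)) =
      trace (A * (Ni1 * Z1) * B * (Z2 * Ni2) * C * J0) := by
    rw [Matrix.mul_assoc _ C J0, trace_mul_comm _ (C * J0)]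
    simp only [Matrix.mul_assoc]
  have ep : trace (Ni0 * A * Z1 * (Ni1 * B) * Z2 * (Ni2 * C) * Z0) =
      trace (A * (Z1 * Ni1) * B * (Z2 * Ni2) * C * (Z0 * Ni0)) := by
    rw [← Matrix.mul_assoc _ Z0 Ni0, trace_mul_comm _ Ni0]
    simp only [Matrix.mul_assoc]
  have em : trace (A * Ni1 * Z1 * (B * Ni2) * Z2 * (C * Ni0) * Z0) =
      trace (A * (Ni1 * Z1) * B * (Ni2 * Z2) * C * (Ni0 * Z0)) := by
    simp only [Matrix.mul_assoc]
  rw [eA] at gA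
  rw [eB] at gB
  rw [ep] at tp
  rw [em] at tm
  have s0 := P0.split
  have s1 := P1.split
  have s2 := P2.split
  generalize Z0 * Ni0 = p0 at *
  generalize Ni0 * Z0 = m0 at *
  generalize Z1 * Ni1 = p1 at *
  generalize Ni1 * Z1 = m1 at *
  generalize Z2 * Ni2 = p2 at *
  generalize Ni2 * Z2 = m2 at *
  subst s0 s1 s2
  simp only [Matrix.mul_add, Matrix.add_mul, trace_add] at gA gB gC ⊢
  linarith

end

/-- A splitting of the coordinates `n` into two halves indexed by `m`. -/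
structure Split [DecidableEq m] [DecidableEq n] (E : Bool → Matrix m n ℝ) : Prop where
  sum : (E false)ᵀ * E false + (E true)ᵀ * E true = 1
  iso : ∀ b, E b * (E b)ᵀ = 1

/-- The sign matrix of a splitting. -/
def sgn (E : Bool → Matrix m n ℝ) : Matrix n n ℝ := (E false)ᵀ * E false - (E true)ᵀ * E true

omit [Fintype n] in
lemma sgn_symm (E : Bool → Matrix m n ℝ) : (sgn E)ᵀ = sgn E := by
  simp [sgn, transpose_sub, transpose_mul]

lemma nn_gram (X : Matrix m n ℝ) : Nn (Xᵀ * X) := by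
  intro x
  rw [← mulVec_mulVec, dot_mulVec_eq, transpose_transpose]
  exact dot_self_nonneg _

section

variable [DecidableEq m] [DecidableEq n] {E : Bool → Matrix m n ℝ}

lemma Split.plus (h : Split E) : Nn (1 + sgn E) := by
  have : 1 + sgn E = (2 : ℝ) • ((E false)ᵀ * E false) := by rw [← h.sum, sgn]; module
  rw [this]
  exact (nn_gram _).smul (by norm_num)

lemma Split.minus (h : Split E) : Nn (1 - sgn E) := by
  have : 1 - sgn E = (2 : ℝ) • ((E true)ᵀ * E true) := by rw [← h.sum, sgn]; module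
  rw [this]
  exact (nn_gram _).smul (by norm_num)

lemma Split.contr (h : Split E) : Contr (sgn E) := by
  refine contr_of_orth ?_
  rw [sgn_symm]
  have e : sgn E = (2 : ℝ) • ((E false)ᵀ * E false) - 1 := by rw [← h.sum, sgn]; module
  have p : (E false)ᵀ * E false * ((E false)ᵀ * E false) = (E false)ᵀ * E false := by
    calc _ = (E false)ᵀ * (E false * (E false)ᵀ) * E false := by simp only [Matrix.mul_assoc]
      _ = _ := by rw [h.iso, Matrix.mul_one]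
  rw [e]
  simp only [Matrix.mul_sub, Matrix.sub_mul, Matrix.mul_smul, Matrix.smul_mul, Matrix.mul_one,
    Matrix.one_mul, p]
  module

end

/-- The regularised Gram matrix at a vertex of the triangle. -/
def Vf [DecidableEq l] (X : Matrix l m ℝ) (Y : Matrix n l ℝ) (η : ℝ) : Matrix l l ℝ :=
  X * Xᵀ + Yᵀ * Y + η • (1 : Matrix l l ℝ)

section

variable [DecidableEq l] (X : Matrix l m ℝ) (Y : Matrix n l ℝ) {η : ℝ}

omit [Fintype l] in
lemma Vf_symm : (Vf X Y η)ᵀ = Vf X Y η := by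
  simp [Vf, transpose_add, transpose_mul]

lemma Vf_quad (x : l → ℝ) : x ⬝ᵥ Vf X Y η *ᵥ x =
    (Xᵀ *ᵥ x) ⬝ᵥ (Xᵀ *ᵥ x) + (Y *ᵥ x) ⬝ᵥ (Y *ᵥ x) + η * (x ⬝ᵥ x) := by
  rw [Vf, add_mulVec, add_mulVec, dotProduct_add, dotProduct_add, ← mulVec_mulVec,
    ← mulVec_mulVec, dot_mulVec_eq X, dot_mulVec_eq Yᵀ, transpose_transpose, smul_mulVec,
    one_mulVec, dotProduct_smul, smul_eq_mul]

lemma Vf_pd (hη : 0 < η) : Pd (Vf X Y η) := by
  intro x hx
  rw [Vf_quad]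
  have := dot_self_nonneg (Xᵀ *ᵥ x)
  have := dot_self_nonneg (Y *ᵥ x)
  have := mul_pos hη (dot_self_pos hx)
  linarith

lemma Vf_sub_left (hη : 0 < η) : Sub Xᵀ (Vf X Y η) := by
  intro x
  rw [Vf_quad]
  have := dot_self_nonneg (Y *ᵥ x)
  have := mul_nonneg hη.le (dot_self_nonneg x)
  linarith

lemma Vf_sub_right (hη : 0 < η) : Sub Y (Vf X Y η) := by
  intro x
  rw [Vf_quad]
  have := dot_self_nonneg (Xᵀ *ᵥ x)
  have := mul_nonneg hη.le (dot_self_nonneg x)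
  linarith

end

section

variable [DecidableEq l] [DecidableEq m] [DecidableEq n]
  [DecidableEq l'] [DecidableEq m'] [DecidableEq n']
  {E0 : Bool → Matrix l' l ℝ} {E1 : Bool → Matrix m' m ℝ} {E2 : Bool → Matrix n' n ℝ}

lemma Vf_block (s0 : Split E0) (s1 : Split E1) (s2 : Split E2)
    (X : Matrix l m ℝ) (Y : Matrix n l ℝ) (η : ℝ) (b : Bool) :
    E0 b * Vf X Y (2 * η) * (E0 b)ᵀ =
      Vf (E0 b * X * (E1 false)ᵀ) (E2 (b ^^ false) * Y * (E0 b)ᵀ) η +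
      Vf (E0 b * X * (E1 true)ᵀ) (E2 (b ^^ true) * Y * (E0 b)ᵀ) η := by
  have a : E0 b * (X * Xᵀ) * (E0 b)ᵀ =
      (E0 b * X * (E1 false)ᵀ) * (E0 b * X * (E1 false)ᵀ)ᵀ +
      (E0 b * X * (E1 true)ᵀ) * (E0 b * X * (E1 true)ᵀ)ᵀ := by
    calc E0 b * (X * Xᵀ) * (E0 b)ᵀ
        = E0 b * X * ((E1 false)ᵀ * E1 false + (E1 true)ᵀ * E1 true) * Xᵀ * (E0 b)ᵀ := by
          rw [s1.sum]; simp only [Matrix.mul_assoc, Matrix.one_mul]
      _ = _ := by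
          simp only [transpose_mul, transpose_transpose, Matrix.mul_add, Matrix.add_mul,
            Matrix.mul_assoc]
  have c : ∀ e, E0 b * (Yᵀ * Y) * (E0 b)ᵀ =
      (E2 (e ^^ false) * Y * (E0 b)ᵀ)ᵀ * (E2 (e ^^ false) * Y * (E0 b)ᵀ) +
      (E2 (e ^^ true) * Y * (E0 b)ᵀ)ᵀ * (E2 (e ^^ true) * Y * (E0 b)ᵀ) := by
    intro e
    calc E0 b * (Yᵀ * Y) * (E0 b)ᵀ
        = E0 b * Yᵀ * ((E2 false)ᵀ * E2 false + (E2 true)ᵀ * E2 true) * Y * (E0 b)ᵀ := by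
          rw [s2.sum]; simp only [Matrix.mul_assoc, Matrix.one_mul]
      _ = _ := by
          cases e <;>
          simp only [transpose_mul, transpose_transpose, Matrix.mul_add, Matrix.add_mul,
            Matrix.mul_assoc, Bool.xor_false, Bool.xor_true, Bool.not_false, Bool.not_true]
          exact add_comm _ _
  simp only [Vf]
  rw [Matrix.mul_add, Matrix.mul_add, Matrix.add_mul, Matrix.add_mul, a, c b, Matrix.mul_smul,
    Matrix.smul_mul, Matrix.mul_one, s0.iso]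
  module

lemma vertex (s0 : Split E0) (s1 : Split E1) (s2 : Split E2)
    (X : Matrix l m ℝ) (Y : Matrix n l ℝ) {η : ℝ} (hη : 0 < η) :
    ∃ N Ni Z, Pack (Vf X Y (2 * η)) (sgn E0) N Ni Z ∧
      Phi (Vf X Y (2 * η)) + 3 / 2 * trace (Z * N * Z) ≤
        2 * ∑ b, ∑ e, Phi (Vf (E0 b * X * (E1 e)ᵀ) (E2 (b ^^ e) * Y * (E0 b)ᵀ) η) := by
  obtain ⟨N, Ni, Z, P⟩ := exists_pack (Vf_symm X Y) (Vf_pd X Y (by positivity : 0 < 2 * η))
    (sgn_symm E0) s0.plus s0.minus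
  refine ⟨N, Ni, Z, P, ?_⟩
  have hs : 0 ≤ Real.sqrt (1 / 2) := Real.sqrt_nonneg _
  have hss : Real.sqrt (1 / 2) * Real.sqrt (1 / 2) = 1 / 2 := Real.mul_self_sqrt (by norm_num)
  have pd : ∀ b, Pd (E0 b * Vf X Y (2 * η) * (E0 b)ᵀ) := fun b => by
    rw [Vf_block s0 s1 s2]; exact (Vf_pd _ _ hη).add (Vf_pd _ _ hη)
  have g := P.gain (E0 false) (E0 true) s0.sum rfl (pd false) (pd true) hs hss
  have a : ∀ b, Real.sqrt (1 / 2) * Phi (E0 b * Vf X Y (2 * η) * (E0 b)ᵀ) ≤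
      ∑ e, Phi (Vf (E0 b * X * (E1 e)ᵀ) (E2 (b ^^ e) * Y * (E0 b)ᵀ) η) := fun b => by
    rw [Vf_block s0 s1 s2, Fintype.sum_bool, add_comm (Phi _)]
    exact Phi_add (Vf_symm _ _) (Vf_pd _ _ hη) (Vf_symm _ _) (Vf_pd _ _ hη) hs hss
  rw [Fintype.sum_bool]
  have := a false
  have := a true
  linarith

/-- The Bellman function. -/
noncomputable def Bel (A : Matrix l m ℝ) (B : Matrix m n ℝ) (C : Matrix n l ℝ) (η : ℝ) : ℝ :=
  Phi (Vf A C η) + Phi (Vf B A η) + Phi (Vf C B η)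

lemma Bel_nonneg (A : Matrix l m ℝ) (B : Matrix m n ℝ) (C : Matrix n l ℝ) (η : ℝ) :
    0 ≤ Bel A B C η :=
  add_nonneg (add_nonneg (Phi_nonneg _) (Phi_nonneg _)) (Phi_nonneg _)

/-- The one-step Bellman inequality. -/
theorem node (s0 : Split E0) (s1 : Split E1) (s2 : Split E2)
    (A : Matrix l m ℝ) (B : Matrix m n ℝ) (C : Matrix n l ℝ) {η : ℝ} (hη : 0 < η) :
    Bel A B C (2 * η) + |trace (A * sgn E1 * B * sgn E2 * C * sgn E0)| ≤
      2 * ∑ b, ∑ e, Bel (E0 b * A * (E1 e)ᵀ) (E1 e * B * (E2 (b ^^ e))ᵀ)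
        (E2 (b ^^ e) * C * (E0 b)ᵀ) η := by
  have h2 : 0 < 2 * η := by positivity
  obtain ⟨N0, Ni0, Z0, P0, g0⟩ := vertex s0 s1 s2 A C hη
  obtain ⟨N1, Ni1, Z1, P1, g1⟩ := vertex s1 s2 s0 B A hη
  obtain ⟨N2, Ni2, Z2, P2, g2⟩ := vertex s2 s0 s1 C B hη
  have t1 := trace_bound P0 P1 P2 s0.contr s1.contr s2.contr (Vf_sub_left A C h2)
    (Vf_sub_right B A h2) (Vf_sub_left B A h2) (Vf_sub_right C B h2) (Vf_sub_left C B h2)
    (Vf_sub_right A C h2)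
  have t2 := trace_bound (A := -A) P0 P1 P2 s0.contr s1.contr s2.contr
    (by rw [transpose_neg]; exact (Vf_sub_left A C h2).neg)
    (Vf_sub_right B A h2).neg (Vf_sub_left B A h2) (Vf_sub_right C B h2) (Vf_sub_left C B h2)
    (Vf_sub_right A C h2)
  simp only [Matrix.neg_mul, trace_neg] at t2
  have q0 := P0.q_nonneg
  have q1 := P1.q_nonneg
  have q2 := P2.q_nonneg
  have t3 : |trace (A * sgn E1 * B * sgn E2 * C * sgn E0)| ≤
      4 / 3 * (trace (Z0 * N0 * Z0) + trace (Z1 * N1 * Z1) + trace (Z2 * N2 * Z2)) :=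
    abs_le.mpr ⟨by linarith, t1⟩
  simp only [Bel, Fintype.sum_bool, Bool.xor_false, Bool.xor_true, Bool.not_false,
    Bool.not_true] at g0 g1 g2 ⊢
  linarith

end

end Vale.Agent.P075
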