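import Vale.Agent.P075.Young

/-! The functional `Phi W = Tr W^(3/2)`, the Lyapunov splitting and the convexity gain. -/

namespace Vale.Agent.P075

open Matrix Finset

variable {l m n k : Type*} [Fintype l] [Fintype m] [Fintype n] [Fintype k]

/-- The trace of the power `3/2` of a symmetric matrix. -/
noncomputable def Phi [DecidableEq n] (W : Matrix n n ℝ) : ℝ :=
  if h : Wᵀ = W then ∑ i, Real.sqrt ((spec W h).choose i) ^ 3 else 0

lemma Phi_nonneg [DecidableEq n] (W : Matrix n n ℝ) : 0 ≤ Phi W := by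
  unfold Phi
  split_ifs
  · exact Finset.sum_nonneg fun i _ => by positivity
  · exact le_rfl

omit [Fintype m] in
lemma conj_symm [DecidableEq n] (O : Matrix m n ℝ) (d : n → ℝ) :
    (O * diagonal d * Oᵀ)ᵀ = O * diagonal d * Oᵀ := by
  simp only [transpose_mul, transpose_transpose, diagonal_transpose, Matrix.mul_assoc]

lemma conj_mul [DecidableEq n] {O : Matrix m n ℝ} (h : Oᵀ * O = 1) (X Y : Matrix n n ℝ) :
    (O * X * Oᵀ) * (O * Y * Oᵀ) = O * (X * Y) * Oᵀ := by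
  calc (O * X * Oᵀ) * (O * Y * Oᵀ) = O * (X * (Oᵀ * O) * Y) * Oᵀ := by
        simp only [Matrix.mul_assoc]
    _ = _ := by rw [h, Matrix.mul_one]

lemma exists_root [DecidableEq n] {W : Matrix n n ℝ} (hs : Wᵀ = W) (hW : Pd W) :
    ∃ (σ : n → ℝ) (O N Ni : Matrix n n ℝ), Oᵀ * O = 1 ∧ O * Oᵀ = 1 ∧ (∀ i, 0 < σ i) ∧
      N = O * diagonal σ * Oᵀ ∧ N * N = W ∧ N * Ni = 1 ∧ Ni * N = 1 ∧ Niᵀ = Ni ∧
      Phi W = ∑ i, σ i ^ 3 := by
  obtain ⟨O, h1, h2, hM⟩ := (spec W hs).choose_spec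
  set d := (spec W hs).choose with hd
  have hpos : ∀ i, 0 < d i := fun i => by
    rw [eig_eq h1 hM i]; exact hW _ (col_ne_zero h1 i)
  refine ⟨fun i => Real.sqrt (d i), O, O * diagonal (fun i => Real.sqrt (d i)) * Oᵀ,
    O * diagonal (fun i => (Real.sqrt (d i))⁻¹) * Oᵀ, h1, h2,
    fun i => Real.sqrt_pos.mpr (hpos i), rfl, ?_, ?_, ?_, conj_symm _ _, ?_⟩
  · rw [conj_mul h1, diagonal_mul_diagonal, hM]
    congr 3
    funext i
    exact Real.mul_self_sqrt (hpos i).le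
  · rw [conj_mul h1, diagonal_mul_diagonal]
    have : (fun i => Real.sqrt (d i) * (Real.sqrt (d i))⁻¹) = fun _ => 1 := by
      funext i; exact mul_inv_cancel₀ (Real.sqrt_pos.mpr (hpos i)).ne'
    rw [this, diagonal_one, Matrix.mul_one, h2]
  · rw [conj_mul h1, diagonal_mul_diagonal]
    have : (fun i => (Real.sqrt (d i))⁻¹ * Real.sqrt (d i)) = fun _ => 1 := by
      funext i; exact inv_mul_cancel₀ (Real.sqrt_pos.mpr (hpos i)).ne'
    rw [this, diagonal_one, Matrix.mul_one, h2]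
  · rw [Phi, dif_pos hs]

/-- Young's inequality tested on the right Gram matrix. -/
lemma young_right [DecidableEq m] (R : Matrix m n ℝ) (hW : Pd (R * Rᵀ))
    {T : Matrix n n ℝ} (hT : Nn T) (hTs : Tᵀ = T) :
    3 * trace (R * T * Rᵀ) ≤ 2 * Phi (R * Rᵀ) + trace (T * T * T) := by
  obtain ⟨σ, O, N, Ni, h1, -, hσ, hN, hsq, i1, i2, his, hΦ⟩ :=
    exists_root (by rw [transpose_mul, transpose_transpose]) hW
  have hU : Contr (Ni * R) := by
    have : Contr (Ni * R)ᵀ := by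
      refine contr_of_orth ?_
      rw [transpose_transpose, transpose_mul, his]
      calc Ni * R * (Rᵀ * Ni) = Ni * (R * Rᵀ) * Ni := by simp only [Matrix.mul_assoc]
        _ = (Ni * N) * (N * Ni) := by rw [← hsq]; simp only [Matrix.mul_assoc]
        _ = 1 := by rw [i1, i2, Matrix.mul_one]
    simpa using this.transpose
  have y := young' h1 hN hU hT hTs
  have e : N * (Ni * R) * T * (Ni * R)ᵀ * N = R * T * Rᵀ := by
    rw [transpose_mul, his]
    calc N * (Ni * R) * T * (Rᵀ * Ni) * N = (N * Ni) * R * T * Rᵀ * (Ni * N) := by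
          simp only [Matrix.mul_assoc]
      _ = _ := by rw [i1, i2, Matrix.one_mul, Matrix.mul_one]
  rw [e] at y
  rw [hΦ]
  have : ∑ a, |σ a| ^ 3 = ∑ a, σ a ^ 3 :=
    Finset.sum_congr rfl fun a _ => by rw [abs_of_pos (hσ a)]
  rwa [this] at y

lemma young_left [DecidableEq m] {W : Matrix m m ℝ} (hs : Wᵀ = W) (hW : Pd W)
    {T : Matrix m m ℝ} (hT : Nn T) (hTs : Tᵀ = T) :
    3 * trace (W * T) ≤ 2 * Phi W + trace (T * T * T) := by
  obtain ⟨σ, O, N, Ni, h1, -, hσ, hN, hsq, i1, i2, his, hΦ⟩ := exists_root hs hW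
  have hNs : Nᵀ = N := by rw [hN]; exact conj_symm _ _
  have e : N * Nᵀ = W := by rw [hNs, hsq]
  have y := young_right N (by rwa [e]) hT hTs
  rw [e, hNs, trace_mul_cycle, hsq] at y
  exact y

lemma Nn.smul {S : Matrix m m ℝ} (h : Nn S) {c : ℝ} (hc : 0 ≤ c) : Nn (c • S) := by
  intro x
  rw [smul_mulVec, dotProduct_smul, smul_eq_mul]
  exact mul_nonneg hc (h x)

lemma Nn.add {S T : Matrix m m ℝ} (h : Nn S) (h' : Nn T) : Nn (S + T) := by
  intro x
  rw [add_mulVec, dotProduct_add]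
  exact add_nonneg (h x) (h' x)

lemma Pd.add {S T : Matrix m m ℝ} (h : Pd S) (h' : Pd T) : Pd (S + T) := by
  intro x hx
  rw [add_mulVec, dotProduct_add]
  exact add_pos (h x hx) (h' x hx)

lemma Phi_add [DecidableEq m] {W1 W2 : Matrix m m ℝ} (s1 : W1ᵀ = W1) (p1 : Pd W1)
    (s2 : W2ᵀ = W2) (p2 : Pd W2) {s : ℝ} (hs : 0 ≤ s) (hss : s * s = 1 / 2) :
    s * Phi (W1 + W2) ≤ Phi W1 + Phi W2 := by
  obtain ⟨σ, O, N, Ni, h1, -, hσ, hN, hsq, i1, i2, his, hΦ⟩ :=
    exists_root (W := W1 + W2) (by rw [transpose_add, s1, s2]) (p1.add p2)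
  have hNs : Nᵀ = N := by rw [hN]; exact conj_symm _ _
  have hNn : Nn N := by rw [hN]; exact (nn_diagonal fun i => (hσ i).le).conj O
  have hT : (s • N)ᵀ = s • N := by rw [transpose_smul, hNs]
  have y1 := young_left s1 p1 (hNn.smul hs) hT
  have y2 := young_left s2 p2 (hNn.smul hs) hT
  have c := trace_cube h1 hN
  have e : trace (W1 * N) + trace (W2 * N) = Phi (W1 + W2) := by
    rw [← trace_add, ← Matrix.add_mul, ← hsq, c, hsq, hΦ]
  simp only [Matrix.mul_smul, Matrix.smul_mul, trace_smul, smul_eq_mul] at y1 y2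
  rw [c, ← hΦ] at y1 y2
  have : s * (s * (s * Phi (W1 + W2))) = s * Phi (W1 + W2) / 2 := by
    rw [← mul_assoc, hss]; ring
  have e' : s * trace (W1 * N) + s * trace (W2 * N) = s * Phi (W1 + W2) := by rw [← e]; ring
  linarith

/-- Square root, its inverse, and the solution of the Lyapunov equation. -/
structure Pack [DecidableEq n] (V J N Ni Z : Matrix n n ℝ) : Prop where
  Ns : Nᵀ = N
  Np : Nn N
  sq : N * N = V
  inv1 : N * Ni = 1
  inv2 : Ni * N = 1
  Nis : Niᵀ = Ni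
  Zs : Zᵀ = Z
  lyap : N * Z + Z * N = N * J * N
  plus : Nn (N + (2 : ℝ) • Z)
  minus : Nn (N - (2 : ℝ) • Z)
  phi : Phi V = trace (N * N * N)

lemma exists_pack [DecidableEq n] {V J : Matrix n n ℝ} (hs : Vᵀ = V) (hV : Pd V) (hJ : Jᵀ = J)
    (hp : Nn (1 + J)) (hm : Nn (1 - J)) : ∃ N Ni Z, Pack V J N Ni Z := by
  obtain ⟨σ, O, N, Ni, h1, h2, hσ, hN, hsq, i1, i2, his, hΦ⟩ := exists_root hs hV
  have hNs : Nᵀ = N := by rw [hN]; exact conj_symm _ _
  have hNn : Nn N := by rw [hN]; exact (nn_diagonal fun i => (hσ i).le).conj O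
  have hNp : Pd N := by
    intro x hx
    rw [hN, ← mulVec_mulVec, ← mulVec_mulVec, dot_mulVec_eq O]
    have hy : Oᵀ *ᵥ x ≠ 0 := by
      intro h0
      apply hx
      have : O *ᵥ (Oᵀ *ᵥ x) = x := by rw [mulVec_mulVec, h2, one_mulVec]
      rw [← this, h0, mulVec_zero]
    generalize Oᵀ *ᵥ x = y at hy
    obtain ⟨i, hi⟩ := Function.ne_iff.mp hy
    simp only [dotProduct, mulVec_diagonal]
    refine Finset.sum_pos' (fun j _ => ?_) ⟨i, Finset.mem_univ i, ?_⟩
    · have := hσ j; nlinarith [mul_self_nonneg (y j)]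
    · have := hσ i
      have h3 : 0 < y i * y i := mul_self_pos.mpr hi
      nlinarith
  set J' : Matrix n n ℝ := Oᵀ * J * O with hJ'
  have hJs : J'ᵀ = J' := by
    rw [hJ']; simp only [transpose_mul, transpose_transpose, hJ, Matrix.mul_assoc]
  set Z' : Matrix n n ℝ := Matrix.of fun a b => σ a * σ b * J' a b / (σ a + σ b) with hZ'
  have hZs' : Z'ᵀ = Z' := by
    ext a b
    have : J' b a = J' a b := by rw [← transpose_apply J' a b, hJs]
    simp only [hZ', transpose_apply, of_apply, this]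
    rw [mul_comm (σ b), add_comm (σ b)]
  have hl' : diagonal σ * Z' + Z' * diagonal σ = diagonal σ * J' * diagonal σ := by
    ext a b
    simp only [Matrix.add_apply, diagonal_mul, mul_diagonal, hZ', of_apply]
    have := hσ a
    have := hσ b
    field_simp
  have hZs : (O * Z' * Oᵀ)ᵀ = O * Z' * Oᵀ := by
    simp only [transpose_mul, transpose_transpose, hZs', Matrix.mul_assoc]
  have hl : N * (O * Z' * Oᵀ) + (O * Z' * Oᵀ) * N = N * J * N := by
    rw [hN, conj_mul h1, conj_mul h1, ← Matrix.add_mul, ← Matrix.mul_add, hl', hJ']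
    simp only [Matrix.mul_assoc]
  generalize O * Z' * Oᵀ = Z at hZs hl
  refine ⟨N, Ni, Z, hNs, hNn, hsq, i1, i2, his, hZs, hl, ?_, ?_, ?_⟩
  · refine lyapunov hNp hNs (by rw [transpose_add, transpose_smul, hNs, hZs]) ?_
    have e : N * (N + (2 : ℝ) • Z) + (N + (2 : ℝ) • Z) * N = (2 : ℝ) • (N * (1 + J) * Nᵀ) := by
      rw [hNs]
      simp only [Matrix.mul_add, Matrix.add_mul, Matrix.mul_smul, Matrix.smul_mul, Matrix.mul_one,
        ← hl]
      module
    rw [e]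
    exact (hp.conj N).smul (by norm_num)
  · refine lyapunov hNp hNs (by rw [transpose_sub, transpose_smul, hNs, hZs]) ?_
    have e : N * (N - (2 : ℝ) • Z) + (N - (2 : ℝ) • Z) * N = (2 : ℝ) • (N * (1 - J) * Nᵀ) := by
      rw [hNs]
      simp only [Matrix.mul_sub, Matrix.sub_mul, Matrix.mul_smul, Matrix.smul_mul, Matrix.mul_one,
        ← hl]
      module
    rw [e]
    exact (hm.conj N).smul (by norm_num)
  · rw [hΦ, trace_cube h1 hN]

section

variable [DecidableEq n] {V J N Ni Z : Matrix n n ℝ}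

lemma Pack.split (h : Pack V J N Ni Z) : J = Z * Ni + Ni * Z := by
  calc J = (Ni * N) * J * (N * Ni) := by rw [h.inv1, h.inv2, Matrix.one_mul, Matrix.mul_one]
    _ = Ni * (N * J * N) * Ni := by simp only [Matrix.mul_assoc]
    _ = (Ni * N) * Z * Ni + Ni * Z * (N * Ni) := by
        rw [← h.lyap]; simp only [Matrix.mul_add, Matrix.add_mul, Matrix.mul_assoc]
    _ = _ := by rw [h.inv1, h.inv2, Matrix.one_mul, Matrix.mul_one]

lemma Pack.cube (h : Pack V J N Ni Z) : ∃ (z : n → ℝ) (O : Matrix n n ℝ), Oᵀ * O = 1 ∧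
    Z = O * diagonal z * Oᵀ ∧ 2 * ∑ a, |z a| ^ 3 ≤ trace (Z * N * Z) := by
  obtain ⟨z, O, h1, h2, hZ⟩ := spec Z h.Zs
  refine ⟨z, O, h1, hZ, ?_⟩
  have e : Z * N * Z = O * (diagonal z * (Oᵀ * N * O) * diagonal z) * Oᵀ := by
    rw [hZ]; simp only [Matrix.mul_assoc]
  rw [e, trace_orth h1, Finset.mul_sum]
  simp only [trace, diag_apply, mul_diagonal, diagonal_mul]
  refine Finset.sum_le_sum fun a _ => ?_
  have p := h.plus fun i => O i a
  have q := h.minus fun i => O i a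
  rw [add_mulVec, dotProduct_add, smul_mulVec, dotProduct_smul, ← eig_eq h1 hZ a, smul_eq_mul,
    ← entry_eq] at p
  rw [sub_mulVec, dotProduct_sub, smul_mulVec, dotProduct_smul, ← eig_eq h1 hZ a, smul_eq_mul,
    ← entry_eq] at q
  have r : 2 * |z a| ≤ (Oᵀ * N * O) a a := by
    rcases abs_cases (z a) with ⟨h3, -⟩ | ⟨h3, -⟩ <;> rw [h3] <;> linarith
  have : |z a| ^ 3 = |z a| * (z a * z a) := by rw [← abs_mul_abs_self]; ring
  rw [this]
  nlinarith [mul_self_nonneg (z a)]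

lemma Pack.q_nonneg (h : Pack V J N Ni Z) : 0 ≤ trace (Z * N * Z) := by
  obtain ⟨z, O, -, -, h3⟩ := h.cube
  have : 0 ≤ ∑ a, |z a| ^ 3 := Finset.sum_nonneg fun a _ => by positivity
  linarith

lemma Pack.nn_plus (h : Pack V J N Ni Z) : Nn (N + Z) := by
  have : N + Z = (1 / 2 : ℝ) • (N + (N + (2 : ℝ) • Z)) := by module
  rw [this]
  exact (h.Np.add h.plus).smul (by norm_num)

lemma Pack.nn_minus (h : Pack V J N Ni Z) : Nn (N - Z) := by
  have : N - Z = (1 / 2 : ℝ) • (N + (N - (2 : ℝ) • Z)) := by module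
  rw [this]
  exact (h.Np.add h.minus).smul (by norm_num)

/-- The convexity gain under pinching. -/
lemma Pack.gain [DecidableEq m] (h : Pack V J N Ni Z) (E0 E1 : Matrix m n ℝ)
    (hsum : E0ᵀ * E0 + E1ᵀ * E1 = 1) (hJ : J = E0ᵀ * E0 - E1ᵀ * E1)
    (p0 : Pd (E0 * V * E0ᵀ)) (p1 : Pd (E1 * V * E1ᵀ))
    {s : ℝ} (hs : 0 ≤ s) (hss : s * s = 1 / 2) :
    Phi V + 3 / 2 * trace (Z * N * Z) ≤
      2 * s * (Phi (E0 * V * E0ᵀ) + Phi (E1 * V * E1ᵀ)) := by
  have g : ∀ E : Matrix m n ℝ, (E * N) * (E * N)ᵀ = E * V * Eᵀ := fun E => by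
    rw [transpose_mul, h.Ns, ← h.sq]; simp only [Matrix.mul_assoc]
  have y0 := young_right (E0 * N) (by rwa [g]) (h.nn_plus.smul hs)
    (by rw [transpose_smul, transpose_add, h.Ns, h.Zs])
  have y1 := young_right (E1 * N) (by rwa [g]) (h.nn_minus.smul hs)
    (by rw [transpose_smul, transpose_sub, h.Ns, h.Zs])
  rw [g] at y0 y1
  have t : ∀ (E : Matrix m n ℝ) (T : Matrix n n ℝ),
      trace (E * N * T * (E * N)ᵀ) = trace (N * (Eᵀ * E) * N * T) := fun E T => by
    rw [trace_mul_cycle, transpose_mul, h.Ns]; simp only [Matrix.mul_assoc]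
  rw [t] at y0 y1
  have a0 : E0ᵀ * E0 = (1 / 2 : ℝ) • (1 + J) := by rw [hJ, ← hsum]; module
  have a1 : E1ᵀ * E1 = (1 / 2 : ℝ) • (1 - J) := by rw [hJ, ← hsum]; module
  rw [a0] at y0
  rw [a1] at y1
  simp only [Matrix.mul_smul, Matrix.smul_mul, trace_smul, smul_eq_mul, Matrix.mul_add,
    Matrix.add_mul, Matrix.mul_sub, Matrix.sub_mul, Matrix.mul_one, trace_add, trace_sub,
    ← h.lyap] at y0 y1
  have c1 : trace (N * Z * Z) = trace (Z * N * Z) := trace_mul_cycle N Z Z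
  have c2 : trace (Z * Z * N) = trace (Z * N * Z) := (trace_mul_cycle Z N Z).symm
  rw [c1, c2] at y0 y1
  rw [h.phi]
  have k1 : s * s * s = s / 2 := by rw [hss]; ring
  have key : 2 * s * trace (N * N * N) + 3 * s * trace (Z * N * Z) ≤
      2 * (Phi (E0 * V * E0ᵀ) + Phi (E1 * V * E1ᵀ)) := by
    linear_combination y0 + y1 + (2 * trace (N * N * N) + 6 * trace (Z * N * Z)) * k1
  have := mul_le_mul_of_nonneg_left key hs
  have k2 : s * (2 * s * trace (N * N * N) + 3 * s * trace (Z * N * Z)) =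
      trace (N * N * N) + 3 / 2 * trace (Z * N * Z) := by
    have : s * (2 * s * trace (N * N * N) + 3 * s * trace (Z * N * Z)) =
      (s * s) * (2 * trace (N * N * N) + 3 * trace (Z * N * Z)) := by ring
    rw [this, hss]; ring
  linarith

end

end Vale.Agent.P075
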