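import Vale.Agent.P075.Lin

/-! Trace inequalities: contraction, Young, the quadratic and the cubic estimate. -/

namespace Vale.Agent.P075

open Matrix Finset

variable {l m n k : Type*} [Fintype l] [Fintype m] [Fintype n] [Fintype k]

lemma trace_sandwich [DecidableEq n] (G : Matrix m n ℝ) (d : n → ℝ) :
    trace (G * diagonal d * Gᵀ) = ∑ a, ∑ b, G a b ^ 2 * d b := by
  simp only [trace, diag_apply]
  refine Finset.sum_congr rfl fun a _ => ?_
  rw [mul_apply]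
  refine Finset.sum_congr rfl fun b _ => ?_
  rw [mul_diagonal, transpose_apply]; ring

lemma Contr.col_sq {U : Matrix m n ℝ} (h : Contr U) (b : n) : ∑ a, U a b ^ 2 ≤ 1 := by
  classical
  have := h (Pi.single b 1)
  simp only [mulVec_single_one] at this
  simpa [dotProduct, sq, Pi.single_apply] using this

lemma Contr.row_sq {U : Matrix m n ℝ} (h : Contr U) (a : m) : ∑ b, U a b ^ 2 ≤ 1 :=
  h.transpose.col_sq a

lemma trace_orth [DecidableEq n] {O : Matrix m n ℝ} (h : Oᵀ * O = 1) (H : Matrix n n ℝ) :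
    trace (O * H * Oᵀ) = trace H := by
  rw [trace_mul_cycle, h, Matrix.one_mul]

lemma trace_conj_le {U : Matrix m n ℝ} (hU : Contr U) {P : Matrix n n ℝ} (hP : Nn P)
    (hPs : Pᵀ = P) : trace (U * P * Uᵀ) ≤ trace P := by
  classical
  obtain ⟨d, O, h1, -, hM⟩ := spec P hPs
  have hd : ∀ i, 0 ≤ d i := fun i => by rw [eig_eq h1 hM i]; exact hP _
  have e1 : trace P = ∑ b, d b := by rw [hM, trace_orth h1, trace_diagonal]
  have e2 : U * P * Uᵀ = (U * O) * diagonal d * (U * O)ᵀ := by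
    rw [hM, transpose_mul]; simp only [Matrix.mul_assoc]
  rw [e1, e2, trace_sandwich, Finset.sum_comm]
  refine Finset.sum_le_sum fun b _ => ?_
  rw [← Finset.sum_mul]
  have := (hU.mul (contr_of_orth h1)).col_sq b
  nlinarith [hd b]

lemma young_scalar (x t : ℝ) (ht : 0 ≤ t) : 3 * (x ^ 2 * t) ≤ 2 * |x| ^ 3 + t ^ 3 := by
  rw [← sq_abs x]
  have h := abs_nonneg x
  generalize |x| = s at h ⊢
  nlinarith [mul_nonneg (sq_nonneg (s - t)) (by positivity : 0 ≤ 2 * s + t)]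

lemma young [DecidableEq m] [DecidableEq n] {X O : Matrix m m ℝ} {x : m → ℝ} (hO : Oᵀ * O = 1)
    (hX : X = O * diagonal x * Oᵀ) {U : Matrix m n ℝ} (hU : Contr U)
    {T Q : Matrix n n ℝ} {t : n → ℝ} (hQ : Qᵀ * Q = 1) (hT : T = Q * diagonal t * Qᵀ)
    (ht : ∀ b, 0 ≤ t b) :
    3 * trace (X * U * T * Uᵀ * X) ≤ 2 * ∑ a, |x a| ^ 3 + ∑ b, t b ^ 3 := by
  set G : Matrix m n ℝ := Oᵀ * U * Q with hG
  have hGc : Contr G := ((contr_of_orth hO).transpose.mul hU).mul (contr_of_orth hQ)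
  have e : X * U * T * Uᵀ * X =
      O * ((diagonal x * G) * diagonal t * (diagonal x * G)ᵀ) * Oᵀ := by
    rw [hX, hT, hG]
    simp only [transpose_mul, transpose_transpose, diagonal_transpose, Matrix.mul_assoc]
  rw [e, trace_orth hO, trace_sandwich]
  have h1 : ∑ a, |x a| ^ 3 ≥ ∑ a, ∑ b, G a b ^ 2 * |x a| ^ 3 := by
    refine Finset.sum_le_sum fun a _ => ?_
    rw [← Finset.sum_mul]
    have := hGc.row_sq a
    have h3 : 0 ≤ |x a| ^ 3 := by positivity
    nlinarith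
  have h2 : ∑ b, t b ^ 3 ≥ ∑ a, ∑ b, G a b ^ 2 * t b ^ 3 := by
    rw [Finset.sum_comm]
    refine Finset.sum_le_sum fun b _ => ?_
    rw [← Finset.sum_mul]
    have := hGc.col_sq b
    have h3 : 0 ≤ t b ^ 3 := pow_nonneg (ht b) 3
    nlinarith
  have h3 : 3 * ∑ a, ∑ b, (diagonal x * G) a b ^ 2 * t b ≤
      2 * (∑ a, ∑ b, G a b ^ 2 * |x a| ^ 3) + ∑ a, ∑ b, G a b ^ 2 * t b ^ 3 := by
    simp only [Finset.mul_sum, ← Finset.sum_add_distrib]
    refine Finset.sum_le_sum fun a _ => Finset.sum_le_sum fun b _ => ?_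
    rw [diagonal_mul]
    have := young_scalar (x a) (t b) (ht b)
    nlinarith [sq_nonneg (G a b)]
  linarith

lemma trace_cube [DecidableEq n] {T Q : Matrix n n ℝ} {t : n → ℝ} (hQ : Qᵀ * Q = 1)
    (hT : T = Q * diagonal t * Qᵀ) : trace (T * T * T) = ∑ b, t b ^ 3 := by
  have e : T * T * T = Q * (diagonal t * (Qᵀ * Q) * diagonal t * (Qᵀ * Q) * diagonal t) * Qᵀ := by
    rw [hT]; simp only [Matrix.mul_assoc]
  rw [e, trace_orth hQ, hQ]
  simp only [Matrix.mul_one, diagonal_mul_diagonal, trace_diagonal]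
  exact Finset.sum_congr rfl fun b _ => by ring

lemma young' [DecidableEq m] {X O : Matrix m m ℝ} {x : m → ℝ} (hO : Oᵀ * O = 1)
    (hX : X = O * diagonal x * Oᵀ) {U : Matrix m n ℝ} (hU : Contr U)
    {T : Matrix n n ℝ} (hT : Nn T) (hTs : Tᵀ = T) :
    3 * trace (X * U * T * Uᵀ * X) ≤ 2 * ∑ a, |x a| ^ 3 + trace (T * T * T) := by
  classical
  obtain ⟨t, Q, h1, -, hM⟩ := spec T hTs
  have ht : ∀ i, 0 ≤ t i := fun i => by rw [eig_eq h1 hM i]; exact hT _
  rw [trace_cube h1 hM]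
  exact young hO hX hU h1 hM ht

/-- The quadratic estimate. -/
lemma quad {S Z : Matrix m m ℝ} {M : Matrix m n ℝ} {S' Z' : Matrix n n ℝ} (h : Dom S M S')
    (hS : Nn S) (hSs : Sᵀ = S) (hZ : Zᵀ = Z) (hZ' : Z'ᵀ = Z') {U : Matrix n m ℝ} (hU : Contr U) :
    2 * trace (U * Z * M * Z') ≤ trace (Z * S * Z) + trace (Z' * S' * Z') := by
  have h1 := h.trace_le (Z * Uᵀ) Z'
  rw [transpose_mul, transpose_transpose, hZ, hZ'] at h1
  have h2 : trace (U * (Z * S * Z) * Uᵀ) ≤ trace (Z * S * Z) := by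
    refine trace_conj_le hU ?_ ?_
    · have := hS.conj Z
      rwa [hZ] at this
    · simp only [transpose_mul, hZ, hSs, Matrix.mul_assoc]
  have e : U * Z * S * (Z * Uᵀ) = U * (Z * S * Z) * Uᵀ := by simp only [Matrix.mul_assoc]
  rw [e] at h1
  linarith

lemma dom_diag [DecidableEq n] (z : n → ℝ) :
    Dom (diagonal fun i => |z i|) (diagonal z) (diagonal fun i => |z i|) := by
  intro x y
  simp only [dotProduct, mulVec_diagonal, Finset.mul_sum, ← Finset.sum_add_distrib]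
  refine Finset.sum_le_sum fun i _ => ?_
  rcases abs_cases (z i) with ⟨h, h0⟩ | ⟨h, h0⟩ <;> rw [h]
  · nlinarith [mul_nonneg h0 (sq_nonneg (x i - y i))]
  · nlinarith [mul_nonneg (neg_nonneg.mpr h0.le) (sq_nonneg (x i + y i))]

/-- The cubic estimate (Hoelder for three Schatten-3 factors). -/
lemma cubic [DecidableEq l] [DecidableEq m] [DecidableEq n]
    {Z0 O0 : Matrix l l ℝ} {z0 : l → ℝ} (h0 : O0ᵀ * O0 = 1) (e0 : Z0 = O0 * diagonal z0 * O0ᵀ)
    {Z1 O1 : Matrix m m ℝ} {z1 : m → ℝ} (h1 : O1ᵀ * O1 = 1) (e1 : Z1 = O1 * diagonal z1 * O1ᵀ)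
    {Z2 O2 : Matrix n n ℝ} {z2 : n → ℝ} (h2 : O2ᵀ * O2 = 1) (e2 : Z2 = O2 * diagonal z2 * O2ᵀ)
    {U0 : Matrix l m ℝ} {U1 : Matrix m n ℝ} {U2 : Matrix n l ℝ}
    (c0 : Contr U0) (c1 : Contr U1) (c2 : Contr U2) :
    3 * trace (U0 * Z1 * U1 * Z2 * U2 * Z0) ≤
      ∑ a, |z0 a| ^ 3 + ∑ a, |z1 a| ^ 3 + ∑ a, |z2 a| ^ 3 := by
  set T : Matrix n n ℝ := O2 * (diagonal fun i => |z2 i|) * O2ᵀ with hT
  have hTn : Nn T := (nn_diagonal fun i => abs_nonneg (z2 i)).conj O2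
  have hTs : Tᵀ = T := by
    rw [hT]; simp only [transpose_mul, transpose_transpose, diagonal_transpose, Matrix.mul_assoc]
  have d1 : Dom T Z2 T := by
    have := (dom_diag z2).conj O2 O2ᵀ
    rwa [transpose_transpose, ← e2] at this
  have d2 := d1.conj U1 U2
  have s0 : Z0ᵀ = Z0 := by
    rw [e0]; simp only [transpose_mul, transpose_transpose, diagonal_transpose, Matrix.mul_assoc]
  have s1 : Z1ᵀ = Z1 := by
    rw [e1]; simp only [transpose_mul, transpose_transpose, diagonal_transpose, Matrix.mul_assoc]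
  have q := quad d2 (hTn.conj U1)
    (by simp only [transpose_mul, transpose_transpose, hTs, Matrix.mul_assoc]) s1 s0 c0
  have y1 := young h1 e1 c1 h2 hT fun b => abs_nonneg (z2 b)
  have y0 := young h0 e0 c2.transpose h2 hT fun b => abs_nonneg (z2 b)
  rw [transpose_transpose] at y0
  simp only [Matrix.mul_assoc] at q y1 y0 ⊢
  linarith

end Vale.Agent.P075
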